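import Vale.Agent.P043.Defs

namespace Vale.Agent.P043

theorem good_embed {G G' : Type} [AddCommGroup G] [AddCommGroup G'] (j : G →+ G') (q : G' →+ G)
    (hq : ∀ x, q (j x) = x) (F : Finset G) (hF : Good [F]) : ∃ F' : Finset G', Good [F'] := by
  classical
  have jinj : Function.Injective j := Function.LeftInverse.injective hq
  obtain ⟨⟨A0, hA0⟩, hno⟩ := hF
  have hA : Tiles A0 F := hA0 F List.mem_cons_self
  refine ⟨F.image j, ⟨{g | q g ∈ A0}, ?_⟩, ?_⟩
  · intro F' hF'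
    rw [List.mem_singleton] at hF'
    subst hF'
    intro g
    obtain ⟨⟨a, f⟩, ⟨ha, hf, hg⟩, hu⟩ := hA (q g)
    simp only at ha hf hg
    refine ⟨(g - j f, j f), ⟨?_, Finset.mem_image_of_mem _ hf, by simp⟩, ?_⟩
    · show q _ ∈ A0
      rw [map_sub, hq, ← hg]
      simpa using ha
    · rintro ⟨a', f'⟩ ⟨ha', hf', hg'⟩
      obtain ⟨f1, hf1, rfl⟩ := Finset.mem_image.1 hf'
      have := hu (q a', f1) ⟨ha', hf1, by rw [← hg']; simp [hq]⟩
      have e : f1 = f := congrArg Prod.snd this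
      subst e
      rw [← hg']
      simp
  · rintro ⟨A, ⟨P, hP, hper⟩, hA'⟩
    have ht := hA' _ List.mem_cons_self
    refine hno ⟨{x | j x ∈ A}, ⟨P, hP, ?_⟩, ?_⟩
    · intro m a ha
      show j _ ∈ A
      rw [map_add, map_nsmul]
      exact hper _ _ ha
    · intro F' hF'
      rw [List.mem_singleton] at hF'
      subst hF'
      intro g
      obtain ⟨⟨a, f⟩, ⟨ha, hf, hg⟩, hu⟩ := ht (j g)
      obtain ⟨f1, hf1, rfl⟩ := Finset.mem_image.1 hf
      simp only at ha hg
      refine ⟨(g - f1, f1), ⟨?_, hf1, by simp⟩, ?_⟩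
      · show j _ ∈ A
        rw [map_sub, ← hg]
        simpa using ha
      · rintro ⟨a', f'⟩ ⟨ha', hf', hg'⟩
        have := hu (j a', j f') ⟨ha', Finset.mem_image_of_mem _ hf', by rw [← hg']; simp⟩
        have e : f' = f1 := jinj (congrArg Prod.snd this)
        subst e
        rw [← hg']
        simp

theorem good_dim (d : ℕ) (hd : 3 ≤ d) (F : Finset ((ℤ × ℤ) × ℤ)) (hF : Good [F]) :
    ∃ F' : Finset (Fin d → ℤ), Good [F'] := by
  let j : (ℤ × ℤ) × ℤ →+ (Fin d → ℤ) :=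
    { toFun := fun x i => if i.val = 0 then x.1.1 else if i.val = 1 then x.1.2 else x.2
      map_zero' := by ext i; simp
      map_add' := fun a b => by
        ext i
        simp only [Prod.fst_add, Prod.snd_add, Pi.add_apply]
        split_ifs <;> rfl }
  let q : (Fin d → ℤ) →+ (ℤ × ℤ) × ℤ :=
    { toFun := fun y => ((y ⟨0, by omega⟩, y ⟨1, by omega⟩), y ⟨2, by omega⟩)
      map_zero' := rfl
      map_add' := fun a b => rfl }
  exact good_embed j q (fun x => by simp [j, q]) F hF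

theorem disc_of_good {G : Type} [AddCommGroup G] (F : Finset G) (hF : Good [F]) :
    F.Nonempty ∧ (∃ A, Tiles A F) ∧ ∀ A, Tiles A F → ¬ IsPeriodic A := by
  obtain ⟨⟨A0, hA0⟩, hno⟩ := hF
  have hA : Tiles A0 F := hA0 F List.mem_cons_self
  refine ⟨?_, ⟨A0, hA⟩, ?_⟩
  · obtain ⟨p, hp, -⟩ := hA 0
    exact ⟨p.2, hp.2.1⟩
  · rintro A hA ⟨H, hH, hper⟩
    refine hno ⟨A, ⟨H.index, Nat.pos_of_ne_zero hH.index_ne_zero, ?_⟩, ?_⟩
    · intro m a ha
      rw [← hper _ (H.nsmul_index_mem m)]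
      exact ⟨a, ha, rfl⟩
    · intro F' hF'
      rw [List.mem_singleton] at hF'
      rw [hF']
      exact hA

end Vale.Agent.P043
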