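import Vale.Agent.P043.Defs

namespace Vale.Agent.P043

open MeasureTheory

section
variable {d : ℕ}

lemma eu_box {S : Set (Fin d → ℝ)} (lo hi : Fin d → ℝ) (h : ∀ i, lo i < hi i)
    (hS : ∀ x : Fin d → ℝ, (∀ i, lo i < x i ∧ x i < hi i) → x ∈ S) : volume S ≠ 0 := by
  intro h0
  have h1 : IsOpen (Set.univ.pi fun i => Set.Ioo (lo i) (hi i)) :=
    isOpen_set_pi Set.finite_univ fun i _ => isOpen_Ioo
  exact h1.measure_ne_zero volume (Set.univ_pi_nonempty_iff.2 fun i => Set.nonempty_Ioo.2 (h i))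
    (measure_mono_null (fun x hx => hS x fun i => hx i trivial) h0)

lemma eu_ae_box {P : (Fin d → ℝ) → Prop} (hP : ∀ᵐ x, P x) (lo hi : Fin d → ℝ)
    (h : ∀ i, lo i < hi i) : ∃ x, P x ∧ ∀ i, lo i < x i ∧ x i < hi i := by
  by_contra hn
  exact eu_box lo hi h (S := {x | ¬ P x}) (fun x hx hp => hn ⟨x, hp, hx⟩) hP

/-- the union of the unit cubes at the points of `F` -/
def euOm (F : Finset (Fin d → ℤ)) : Set (Fin d → ℝ) := {x | (fun i => ⌊x i⌋) ∈ F}

lemma eu_mem {F : Finset (Fin d → ℤ)} {a x : Fin d → ℝ} :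
    x ∈ (fun y => y + a) '' euOm F ↔ (fun i => ⌊x i - a i⌋) ∈ F := by
  rw [Set.image_add_right, Set.mem_preimage, ← sub_eq_add_neg]
  rfl

lemma eu_countable {F : Finset (Fin d → ℤ)} {f : Fin d → ℤ} (hf : f ∈ F) {A : Set (Fin d → ℝ)}
    (h : RTiles A (euOm F)) : A.Countable := by
  refine Set.MapsTo.countable_of_injOn (f := fun a i => ⌊a i⌋) (Set.mapsTo_univ _ _)
    (fun a ha b hb e => ?_) Set.countable_univ
  by_contra hne
  have e' : ∀ i, ⌊a i⌋ = ⌊b i⌋ := congrFun e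
  refine eu_box (fun i => f i + max (a i) (b i)) (fun i => f i + min (a i) (b i) + 1) (fun i => ?_)
    (fun x hx => ?_) (h.2 a ha b hb hne)
  · have := abs_lt.1 (Int.abs_sub_lt_one_of_floor_eq_floor (e' i))
    rcases le_total (a i) (b i) with h1 | h1
    · rw [max_eq_right h1, min_eq_left h1]; linarith
    · rw [max_eq_left h1, min_eq_right h1]; linarith
  · constructor
    · rw [eu_mem]
      convert hf using 1
      funext i
      rw [Int.floor_eq_iff]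
      constructor <;> linarith [hx i, le_max_left (a i) (b i), min_le_left (a i) (b i)]
    · rw [eu_mem]
      convert hf using 1
      funext i
      rw [Int.floor_eq_iff]
      constructor <;> linarith [hx i, le_max_right (a i) (b i), min_le_right (a i) (b i)]

lemma eu_ae_tiles {F : Finset (Fin d → ℤ)} {f : Fin d → ℤ} (hf : f ∈ F) {A : Set (Fin d → ℝ)}
    (h : RTiles A (euOm F)) : ∀ᵐ θ : Fin d → ℝ, Tiles ((fun a i => ⌈a i - θ i⌉) '' A) F := by
  have hA := eu_countable hf h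
  have h1 : ∀ᵐ x : Fin d → ℝ, ∃ a ∈ A, (fun i => ⌊x i - a i⌋) ∈ F := by
    filter_upwards [compl_mem_ae_iff.2 h.1] with x hx
    rw [compl_compl, Set.mem_iUnion₂] at hx
    obtain ⟨a, ha, hx⟩ := hx
    exact ⟨a, ha, eu_mem.1 hx⟩
  have h2 : ∀ᵐ x : Fin d → ℝ, ∀ a ∈ A, ∀ b ∈ A, (fun i => ⌊x i - a i⌋) ∈ F →
      (fun i => ⌊x i - b i⌋) ∈ F → a = b := by
    rw [ae_ball_iff hA]
    intro a ha
    rw [ae_ball_iff hA]
    intro b hb
    rcases eq_or_ne a b with e | e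
    · exact Filter.Eventually.of_forall fun _ _ _ => e
    · filter_upwards [compl_mem_ae_iff.2 (h.2 a ha b hb e)] with x hx k1 k2
      exact absurd ⟨eu_mem.2 k1, eu_mem.2 k2⟩ hx
  refine ae_all_iff.2 fun g => ?_
  filter_upwards [(measurePreserving_add_right volume fun i => (g i : ℝ)).quasiMeasurePreserving.ae
    (h1.and h2)] with θ ⟨⟨a, ha, k1⟩, k2⟩
  have e : ∀ b : Fin d → ℝ, (fun i => ⌊(θ + fun i => (g i : ℝ)) i - b i⌋) =
      g - fun i => ⌈b i - θ i⌉ := fun b => funext fun i => by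
    rw [Pi.add_apply, Pi.sub_apply, show θ i + g i - b i = -(b i - θ i) + g i by ring,
      Int.floor_add_intCast, Int.floor_neg]
    ring
  simp only [e] at k1 k2
  refine ⟨(_, _), ⟨⟨a, ha, rfl⟩, k1, add_sub_cancel _ _⟩, ?_⟩
  rintro ⟨_, f'⟩ ⟨⟨b, hb, rfl⟩, k3, k4⟩
  have k5 : f' = g - fun i => ⌈b i - θ i⌉ := eq_sub_of_add_eq' k4
  rw [k5] at k3 ⊢
  rw [k2 a ha b hb k1 k3]
  rfl

lemma eu_lattice {v : Fin d → (Fin d → ℝ)} (hv : LinearIndependent ℝ v)
    (hi : ∀ k i, ∃ n : ℤ, v k i = n) : ∃ P : ℕ, 0 < P ∧ ∀ m : Fin d → ℤ,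
      (fun i => (((P • m) i : ℤ) : ℝ)) ∈ Submodule.span ℤ (Set.range v) := by
  choose V hV using hi
  have e : (Matrix.of V).map (Int.castRingHom ℝ) = Matrix.of v := by
    ext k i
    exact (hV k i).symm
  have h1 : (Matrix.of V).det ≠ 0 := fun h0 => by
    have h2 : IsUnit (Matrix.of v) := Matrix.linearIndependent_rows_iff_isUnit.1 hv
    rw [Matrix.isUnit_iff_isUnit_det, ← e, ← RingHom.mapMatrix_apply, ← RingHom.map_det, h0,
      map_zero] at h2
    exact not_isUnit_zero h2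
  refine ⟨(Matrix.of V).det.natAbs * (Matrix.of V).det.natAbs,
    Nat.mul_pos (Int.natAbs_pos.2 h1) (Int.natAbs_pos.2 h1), fun m => ?_⟩
  have h3 : ((Matrix.of V).det.natAbs * (Matrix.of V).det.natAbs) • m =
      Matrix.vecMul (Matrix.vecMul ((Matrix.of V).det • m) (Matrix.of V).adjugate)
        (Matrix.of V) := by
    rw [Matrix.vecMul_vecMul, Matrix.adjugate_mul, Matrix.vecMul_smul, Matrix.vecMul_one, smul_smul,
      ← Int.natAbs_mul_self, natCast_zsmul]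
  rw [h3, Submodule.mem_span_range_iff_exists_fun]
  refine ⟨Matrix.vecMul ((Matrix.of V).det • m) (Matrix.of V).adjugate, funext fun i => ?_⟩
  generalize Matrix.vecMul ((Matrix.of V).det • m) (Matrix.of V).adjugate = c
  simp [Matrix.vecMul, dotProduct, hV]

end

/-- From a rigid discrete tile to a Euclidean one. See notes/P043.md, Euclid. -/
theorem euclid (d : ℕ) (F : Finset (Fin d → ℤ)) (hF : Good [F])
    (hr : ∀ A, Tiles A F → ∀ a ∈ A, ∀ b ∈ A, ∀ i, (5 : ℤ) ∣ a i - b i) :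
    ∃ Ω : Set (Fin d → ℝ), Bornology.IsBounded Ω ∧ MeasurableSet Ω ∧ 0 < volume Ω ∧
      (∃ A, RTiles A Ω) ∧ ∀ A, RTiles A Ω → ¬ RPeriodic A := by
  obtain ⟨⟨A0, h0⟩, hno⟩ := hF
  replace h0 := h0 F List.mem_cons_self
  obtain ⟨f, hf⟩ : ∃ f, f ∈ F := (h0 0).exists.elim fun p hp => ⟨p.2, hp.2.1⟩
  refine ⟨euOm F, ?_, ?_, ?_, ⟨(fun a i => (a i : ℝ)) '' A0, ?_, ?_⟩, fun A hA => ?_⟩
  · refine ((Bornology.isBounded_biUnion_finset F).2 fun g _ =>
      Metric.isBounded_closedBall (x := fun i => (g i : ℝ)) (r := 1)).subset fun x hx => ?_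
    refine Set.mem_biUnion hx ((dist_pi_le_iff zero_le_one).2 fun i => ?_)
    rw [Real.dist_eq, abs_le]
    constructor <;> linarith [Int.floor_le (x i), Int.lt_floor_add_one (x i)]
  · exact (measurable_pi_lambda _ fun i => (measurable_pi_apply i).floor) F.measurableSet
  · refine pos_iff_ne_zero.2 (eu_box (fun i => f i) (fun i => f i + 1) (fun i => lt_add_one _)
      fun x hx => ?_)
    have : (fun i => ⌊x i⌋) = f := funext fun i => Int.floor_eq_iff.2 ⟨(hx i).1.le, (hx i).2⟩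
    change (fun i => ⌊x i⌋) ∈ F
    rwa [this]
  · refine measure_mono_null (fun x hx => hx ?_) measure_empty
    obtain ⟨⟨a, g⟩, ⟨k1, k2, k3⟩, -⟩ := h0 fun i => ⌊x i⌋
    refine Set.mem_biUnion (Set.mem_image_of_mem _ k1) (eu_mem.2 ?_)
    simp only [Int.floor_sub_intCast]
    have k4 : g = fun i => ⌊x i⌋ - a i := eq_sub_of_add_eq' k3
    exact k4 ▸ k2
  · rintro _ ⟨a, ha, rfl⟩ _ ⟨b, hb, rfl⟩ hne
    refine measure_mono_null (fun x ⟨k1, k2⟩ => hne ?_) measure_empty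
    rw [eu_mem] at k1 k2
    simp only [Int.floor_sub_intCast] at k1 k2
    have := (h0 fun i => ⌊x i⌋).unique (y₁ := (a, _)) (y₂ := (b, _)) ⟨ha, k1, add_sub_cancel _ _⟩
      ⟨hb, k2, add_sub_cancel _ _⟩
    rw [show a = b from congrArg Prod.fst this]
  · rintro ⟨v, hv, hp⟩
    have hae := eu_ae_tiles hf hA
    have hint : ∀ a ∈ A, ∀ b ∈ A, ∀ i, ∃ n : ℤ, b i - a i = n := fun a ha b hb i => by
      by_contra hn
      have k1 : (⌊b i - a i⌋ : ℝ) < b i - a i :=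
        (Int.floor_le _).lt_of_ne fun e => hn ⟨_, e.symm⟩
      have k2 := Int.lt_floor_add_one (b i - a i)
      obtain ⟨ε, e0, e1, e2⟩ : ∃ ε : ℝ, 0 < ε ∧ ε ≤ b i - a i - ⌊b i - a i⌋ ∧
          ε ≤ ⌊b i - a i⌋ + 1 - (b i - a i) :=
        ⟨min _ _, lt_min (by linarith) (by linarith), min_le_left _ _, min_le_right _ _⟩
      obtain ⟨θ, t1, t2⟩ := eu_ae_box hae (fun j => a j - ε) a fun j => by linarith
      obtain ⟨θ', t1', t2'⟩ := eu_ae_box hae a (fun j => a j + ε) fun j => by linarith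
      have d1 := hr _ t1 _ ⟨a, ha, rfl⟩ _ ⟨b, hb, rfl⟩ i
      have d2 := hr _ t1' _ ⟨a, ha, rfl⟩ _ ⟨b, hb, rfl⟩ i
      have c1 : ⌈a i - θ i⌉ = 1 := Int.ceil_eq_iff.2 (by
        constructor <;> push_cast <;> linarith [t2 i])
      have c2 : ⌈b i - θ i⌉ = ⌊b i - a i⌋ + 1 := Int.ceil_eq_iff.2 (by
        constructor <;> push_cast <;> linarith [t2 i])
      have c3 : ⌈a i - θ' i⌉ = 0 := Int.ceil_eq_iff.2 (by
        constructor <;> push_cast <;> linarith [t2' i])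
      have c4 : ⌈b i - θ' i⌉ = ⌊b i - a i⌋ + 1 := Int.ceil_eq_iff.2 (by
        constructor <;> push_cast <;> linarith [t2' i])
      simp only [c1, c2] at d1
      simp only [c3, c4] at d2
      omega
    obtain ⟨θ, ht⟩ := hae.exists
    obtain ⟨⟨_, _⟩, ⟨⟨a0, ha0, -⟩, -⟩, -⟩ := ht 0
    have hm : ∀ l ∈ Submodule.span ℤ (Set.range v), ∀ a ∈ A, a + l ∈ A := fun l hl a ha =>
      hp l hl ▸ Set.mem_image_of_mem _ ha
    obtain ⟨P, hP, hl⟩ := eu_lattice hv fun k i => by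
      simpa using hint a0 ha0 _ (hm _ (Submodule.subset_span ⟨k, rfl⟩) a0 ha0) i
    refine hno ⟨_, ⟨P, hP, ?_⟩, fun G hG => List.mem_singleton.1 hG ▸ ht⟩
    rintro m _ ⟨a, ha, rfl⟩
    refine ⟨_, hm _ (hl m) a ha, funext fun i => ?_⟩
    change ⌈a i + (((P • m) i : ℤ) : ℝ) - θ i⌉ = ⌈a i - θ i⌉ + (P • m) i
    rw [add_sub_right_comm, Int.ceil_add_intCast]

end Vale.Agent.P043
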