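import Mathlib

namespace Vale.Agent.P043

theorem core_equiv (r a b i j : ℕ) [NeZero r] [NeZero a] [NeZero b] (h : r = i * a + j * b) :
    ∃ e : ZMod r ≃ (Fin i × ZMod a) ⊕ (Fin j × ZMod b),
      ∀ t, (t.val < i * a → ∃ q, e t = Sum.inl q) ∧ (i * a ≤ t.val → ∃ q, e t = Sum.inr q) := by
  let e0 : ZMod r ≃ Fin (i * a + j * b) :=
    { toFun := fun t => ⟨t.val, h ▸ ZMod.val_lt t⟩
      invFun := fun k => (k.val : ZMod r)
      left_inv := fun t => by simp
      right_inv := fun k => by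
        apply Fin.ext
        exact ZMod.val_cast_of_lt (h ▸ k.isLt) }
  let e1 : Fin (i * a) ≃ Fin i × ZMod a :=
    finProdFinEquiv.symm.trans (Equiv.prodCongr (Equiv.refl _) (ZMod.finEquiv a).toEquiv)
  let e2 : Fin (j * b) ≃ Fin j × ZMod b :=
    finProdFinEquiv.symm.trans (Equiv.prodCongr (Equiv.refl _) (ZMod.finEquiv b).toEquiv)
  refine ⟨e0.trans (finSumFinEquiv.symm.trans (Equiv.sumCongr e1 e2)), fun t => ⟨?_, ?_⟩⟩
  · intro ht
    refine ⟨e1 ⟨t.val, ht⟩, ?_⟩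
    have : e0 t = Fin.castAdd (j * b) ⟨t.val, ht⟩ := Fin.ext rfl
    simp only [Equiv.trans_apply, this, finSumFinEquiv_symm_apply_castAdd, Equiv.sumCongr_apply,
      Sum.map_inl]
  · intro ht
    have h2 : t.val - i * a < j * b := by have := ZMod.val_lt t; omega
    refine ⟨e2 ⟨t.val - i * a, h2⟩, ?_⟩
    have : e0 t = Fin.natAdd (i * a) ⟨t.val - i * a, h2⟩ := by
      apply Fin.ext
      show t.val = i * a + (t.val - i * a)
      omega
    simp only [Equiv.trans_apply, this, finSumFinEquiv_symm_apply_natAdd, Equiv.sumCongr_apply,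
      Sum.map_inr]

/-- Bundles of tags. See notes/P043.md, Core. -/
theorem core (r a b i j : ℕ) [NeZero r] [NeZero a] [NeZero b] (h : r = i * a + j * b) :
    ∃ (α : ZMod r → ZMod a → ZMod a) (β : ZMod r → ZMod b → ZMod b)
      (col : ZMod r → ZMod a → ZMod b → ZMod r),
      (∀ t, t.val < i * a → ∀ n n', α t n = α t n') ∧
      (∀ t, i * a ≤ t.val → ∀ n n', β t n = β t n') ∧
      (∀ m, Function.Injective fun q : ZMod r × ZMod a => (col q.1 q.2 m, α q.1 q.2)) ∧
      (∀ n, Function.Injective fun q : ZMod r × ZMod b => (col q.1 n q.2, β q.1 q.2)) ∧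
      (∀ n m, Function.Injective fun t => col t n m) := by
  obtain ⟨e, he⟩ := core_equiv r a b i j h
  refine ⟨fun t n => Sum.elim (fun q => q.2) (fun _ => n) (e t),
    fun t m => Sum.elim (fun _ => m) (fun q => q.2) (e t),
    fun t n m => e.symm (Sum.map (fun q => (q.1, n - q.2)) (fun q => (q.1, m - q.2)) (e t)),
    ?_, ?_, ?_, ?_, ?_⟩
  · intro t ht n n'
    obtain ⟨q, hq⟩ := (he t).1 ht
    simp [hq]
  · intro t ht n n'
    obtain ⟨q, hq⟩ := (he t).2 ht
    simp [hq]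
  · rintro m ⟨t, n⟩ ⟨t', n'⟩ hh
    simp only [Prod.mk.injEq, EmbeddingLike.apply_eq_iff_eq] at hh
    obtain ⟨h1, h2⟩ := hh
    have key : e t = e t' ∧ n = n' := by
      rcases ht : e t with ⟨k, c⟩ | ⟨k, c⟩ <;> rcases ht' : e t' with ⟨k', c'⟩ | ⟨k', c'⟩ <;>
        rw [ht, ht'] at h1 h2 <;> simp at h1 h2
      · obtain ⟨rfl, h3⟩ := h1
        subst h2
        exact ⟨rfl, by simpa using h3⟩
      · obtain ⟨rfl, rfl⟩ := h1
        exact ⟨rfl, h2⟩
    exact Prod.ext (e.injective key.1) key.2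
  · rintro m ⟨t, n⟩ ⟨t', n'⟩ hh
    simp only [Prod.mk.injEq, EmbeddingLike.apply_eq_iff_eq] at hh
    obtain ⟨h1, h2⟩ := hh
    have key : e t = e t' ∧ n = n' := by
      rcases ht : e t with ⟨k, c⟩ | ⟨k, c⟩ <;> rcases ht' : e t' with ⟨k', c'⟩ | ⟨k', c'⟩ <;>
        rw [ht, ht'] at h1 h2 <;> simp at h1 h2
      · obtain ⟨rfl, rfl⟩ := h1
        exact ⟨rfl, h2⟩
      · obtain ⟨rfl, h3⟩ := h1
        subst h2
        exact ⟨rfl, by simpa using h3⟩
    exact Prod.ext (e.injective key.1) key.2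
  · intro n m t t' hh
    simp only [EmbeddingLike.apply_eq_iff_eq] at hh
    apply e.injective
    rcases ht : e t with ⟨k, c⟩ | ⟨k, c⟩ <;> rcases ht' : e t' with ⟨k', c'⟩ | ⟨k', c'⟩ <;>
      rw [ht, ht'] at hh <;> simp at hh
    · obtain ⟨rfl, rfl⟩ := hh
      rfl
    · obtain ⟨rfl, rfl⟩ := hh
      rfl

/-- a coordinate along the cosets of an embedded subgroup -/
theorem exists_hi {H K : Type} [AddCommGroup H] [AddCommGroup K] (f : H →+ K)
    (hf : Function.Injective f) : ∃ hi : K → H, ∀ θ η, hi (θ + f η) = hi θ + η := by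
  have h1 : ∀ θ : K, ∃ η : H,
      f η = θ - (QuotientAddGroup.mk θ : K ⧸ f.range).out := by
    intro θ
    have h2 : (QuotientAddGroup.mk ((QuotientAddGroup.mk θ : K ⧸ f.range).out) : K ⧸ f.range) =
        QuotientAddGroup.mk θ := Quotient.out_eq _
    rw [QuotientAddGroup.eq] at h2
    obtain ⟨η, hη⟩ := h2
    exact ⟨η, by rw [hη]; abel⟩
  choose hi hhi using h1
  refine ⟨hi, fun θ η => hf ?_⟩
  have h3 : (QuotientAddGroup.mk (θ + f η) : K ⧸ f.range) = QuotientAddGroup.mk θ := by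
    rw [QuotientAddGroup.eq]
    exact ⟨-η, by simp⟩
  rw [map_add, hhi, hhi, h3]
  abel

end Vale.Agent.P043
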