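import Vale.Agent.P043.Par
import Vale.Agent.P043.Core

namespace Vale.Agent.P043

/-- a dependent triple -/
def exTri {X : Fin 3 → Type} (x0 : X 0) (x1 : X 1) (x2 : X 2) : (a : Fin 3) → X a
  | ⟨0, _⟩ => x0
  | ⟨1, _⟩ => x1
  | ⟨2, _⟩ => x2

theorem ex_three (a : Fin 3) : a = 0 ∨ a = 1 ∨ a = 2 := by
  revert a; decide

theorem ex_block (r : ℕ) (p : Fin 3 → ℕ) [NeZero r] [∀ a, NeZero (p a)]
    (hf : ∀ c, c ≠ 2 → ∃ a b : ℕ, r = a * p c + b * p 2) (st : Bool) :
    ∃ (A : (a : Fin 3) → ZMod r → ZMod (p a) → ZMod (p a))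
      (col : ZMod r → ((a : Fin 3) → ZMod (p a)) → ZMod r),
      (∀ a : Fin 3, a = (if st then 1 else 0) → ∀ t t' n, A a t n = A a t' n) ∧
      (∀ a : Fin 3, a = (if st then 0 else 1) → ∀ t,
        (∀ n n', A a t n = A a t n') ∨ (∀ n n', A 2 t n = A 2 t n')) ∧
      (∀ (a : Fin 3) (n : (a : Fin 3) → ZMod (p a)), Function.Injective
        fun q : ZMod r × ZMod (p a) => (col q.1 (Function.update n a q.2), A a q.1 q.2)) := by
  cases st with
  | false =>
    obtain ⟨i, j, h⟩ := hf 1 (by decide)
    obtain ⟨α, β, col, h1, h2, h3, h4, h5⟩ := core r (p 1) (p 2) i j h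
    refine ⟨exTri (X := fun a => ZMod r → ZMod (p a) → ZMod (p a)) (fun _ n => n) α β,
      fun t n => col t (n 1) (n 2), ?_, ?_, ?_⟩
    · rintro a rfl t t' n
      rfl
    · rintro a rfl t
      rcases lt_or_ge t.val (i * p 1) with ht | ht
      · exact Or.inl (h1 t ht)
      · exact Or.inr (h2 t ht)
    · intro a n
      rcases ex_three a with rfl | rfl | rfl
      · rintro ⟨t, m⟩ ⟨t', m'⟩ hh
        simp only [Prod.mk.injEq] at hh
        obtain ⟨k1, k2⟩ := hh
        rw [Function.update_of_ne (by decide), Function.update_of_ne (by decide),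
          Function.update_of_ne (by decide), Function.update_of_ne (by decide)] at k1
        exact Prod.ext (h5 _ _ k1) k2
      · rintro ⟨t, m⟩ ⟨t', m'⟩ hh
        simp only [Function.update_self] at hh
        rw [Function.update_of_ne (by decide), Function.update_of_ne (by decide)] at hh
        exact h3 (n 2) hh
      · rintro ⟨t, m⟩ ⟨t', m'⟩ hh
        simp only [Function.update_self] at hh
        rw [Function.update_of_ne (by decide), Function.update_of_ne (by decide)] at hh
        exact h4 (n 1) hh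
  | true =>
    obtain ⟨i, j, h⟩ := hf 0 (by decide)
    obtain ⟨α, β, col, h1, h2, h3, h4, h5⟩ := core r (p 0) (p 2) i j h
    refine ⟨exTri (X := fun a => ZMod r → ZMod (p a) → ZMod (p a)) α (fun _ n => n) β,
      fun t n => col t (n 0) (n 2), ?_, ?_, ?_⟩
    · rintro a rfl t t' n
      rfl
    · rintro a rfl t
      rcases lt_or_ge t.val (i * p 0) with ht | ht
      · exact Or.inl (h1 t ht)
      · exact Or.inr (h2 t ht)
    · intro a n
      rcases ex_three a with rfl | rfl | rfl
      · rintro ⟨t, m⟩ ⟨t', m'⟩ hh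
        simp only [Function.update_self] at hh
        rw [Function.update_of_ne (by decide), Function.update_of_ne (by decide)] at hh
        exact h3 (n 2) hh
      · rintro ⟨t, m⟩ ⟨t', m'⟩ hh
        simp only [Prod.mk.injEq] at hh
        obtain ⟨k1, k2⟩ := hh
        rw [Function.update_of_ne (by decide), Function.update_of_ne (by decide),
          Function.update_of_ne (by decide), Function.update_of_ne (by decide)] at k1
        exact Prod.ext (h5 _ _ k1) k2
      · rintro ⟨t, m⟩ ⟨t', m'⟩ hh
        simp only [Function.update_self] at hh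
        rw [Function.update_of_ne (by decide), Function.update_of_ne (by decide)] at hh
        exact h4 (n 0) hh

theorem ex_cast_dvd {m : ℕ} {a b : ℤ} (h : (m : ℤ) ∣ a - b) : (a : ZMod m) = (b : ZMod m) :=
  ((ZMod.intCast_eq_intCast_iff_dvd_sub b a m).2 h).symm

theorem ex_special {I : Type} (P : Par I) :
    ∃ S : (a : Fin 3) → ℤ → ℤ → ZMod (P.p (none, a)),
      (∀ a : Fin 3, a ≠ 2 → ∀ t n : ℤ, S a t (n - P.p (none, a)) = S a t n) ∧
      (∀ t : ℤ, ¬ 2 ≤ t % 7 → ∀ n n', S 0 t n = S 0 t n') ∧
      (∀ t : ℤ, 2 ≤ t % 7 → ∀ n n', S 1 t n = S 1 t n') ∧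
      (∀ b : Fin 3, b ≠ 2 → ∀ t n : ℤ, Function.Injective
        fun q : ZMod (P.p (none, 2)) × ZMod (P.p (none, b)) =>
          (S 2 (t - q.1.val) (n - q.2.val * P.e (none, b)),
            S b (t - q.1.val) (n - q.2.val * P.e (none, b)))) := by
  obtain ⟨α, β, col, h1, h2, h3, h4, -⟩ := core (P.p (none, 2)) (P.p (none, 0)) (P.p (none, 1)) 1 1
    (by rw [P.p0, P.p1, P.p2])
  have hv : ∀ t : ℤ, (((t : ZMod (P.p (none, 2))).val : ℕ) : ℤ) = t % 7 := by
    intro t
    rw [ZMod.val_intCast, P.p2]
    rfl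
  have hself : ∀ (b : Fin 3) (n : ℤ) (ν : ZMod (P.p (none, b))),
      ((n - ν.val * P.e (none, b) : ℤ) : ZMod (P.p (none, b))) = n - ν := by
    intro b n ν
    have : (P.e (none, b) : ZMod (P.p (none, b))) = ((1 : ℤ) : ZMod _) := ex_cast_dvd (P.e_self _)
    push_cast
    rw [this]
    simp
  have hne : ∀ (b c : Fin 3), c ≠ b → ∀ (n k : ℤ),
      ((n - k * P.e (none, b) : ℤ) : ZMod (P.p (none, c))) = n := by
    intro b c hc n k
    have : (P.e (none, b) : ZMod (P.p (none, c))) = 0 :=
      (ZMod.intCast_zmod_eq_zero_iff_dvd _ _).2 (P.e_ne _ _ (by simpa using hc))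
    push_cast
    rw [this]
    simp
  have ht : ∀ (t : ℤ) (k : ZMod (P.p (none, 2))),
      ((t - k.val : ℤ) : ZMod (P.p (none, 2))) = t - k := by
    intro t k
    push_cast
    simp
  refine ⟨exTri (X := fun a => ℤ → ℤ → ZMod (P.p (none, a))) (fun t n => α t n) (fun t n => β t n)
    (fun t n => col t n n), ?_, ?_, ?_, ?_⟩
  · intro a ha t n
    rcases ex_three a with rfl | rfl | rfl
    · show α t _ = α t _
      congr 1
      push_cast
      simp
    · show β t _ = β t _
      congr 1
      push_cast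
      simp
    · exact absurd rfl ha
  · intro t h n n'
    have := hv t
    exact h1 _ (by rw [P.p0]; omega) _ _
  · intro t h n n'
    have := hv t
    exact h2 _ (by rw [P.p0]; omega) _ _
  · intro b hb t n
    rcases ex_three b with rfl | rfl | rfl
    · rintro ⟨k, ν⟩ ⟨k', ν'⟩ hh
      have hh' : (col ((t - k.val : ℤ) : ZMod _) ((n - ν.val * P.e (none, 0) : ℤ) : ZMod _)
            ((n - ν.val * P.e (none, 0) : ℤ) : ZMod _),
          α ((t - k.val : ℤ) : ZMod _) ((n - ν.val * P.e (none, 0) : ℤ) : ZMod _)) =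
          (col ((t - k'.val : ℤ) : ZMod _) ((n - ν'.val * P.e (none, 0) : ℤ) : ZMod _)
            ((n - ν'.val * P.e (none, 0) : ℤ) : ZMod _),
          α ((t - k'.val : ℤ) : ZMod _) ((n - ν'.val * P.e (none, 0) : ℤ) : ZMod _)) := hh
      rw [ht, ht, hself, hself, hne 0 1 (by decide), hne 0 1 (by decide)] at hh'
      have := @h3 n (t - k, n - ν) (t - k', n - ν') hh'
      simpa using this
    · rintro ⟨k, ν⟩ ⟨k', ν'⟩ hh
      have hh' : (col ((t - k.val : ℤ) : ZMod _) ((n - ν.val * P.e (none, 1) : ℤ) : ZMod _)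
            ((n - ν.val * P.e (none, 1) : ℤ) : ZMod _),
          β ((t - k.val : ℤ) : ZMod _) ((n - ν.val * P.e (none, 1) : ℤ) : ZMod _)) =
          (col ((t - k'.val : ℤ) : ZMod _) ((n - ν'.val * P.e (none, 1) : ℤ) : ZMod _)
            ((n - ν'.val * P.e (none, 1) : ℤ) : ZMod _),
          β ((t - k'.val : ℤ) : ZMod _) ((n - ν'.val * P.e (none, 1) : ℤ) : ZMod _)) := hh
      rw [ht, ht, hself, hself, hne 1 0 (by decide), hne 1 0 (by decide)] at hh'
      have := @h4 n (t - k, n - ν) (t - k', n - ν') hh'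
      simpa using this
    · exact absurd rfl hb

theorem ex_b0inv {I : Type} (D : Csp I) (i : I) (x : ℤ × ℤ) (k : ℤ) :
    D.b0 (x - k • D.h i) i = D.b0 x i := by
  induction k using Int.induction_on with
  | zero => simp
  | succ k ih =>
    rw [← ih, ← D.b0inv (x - ((k : ℤ) + 1) • D.h i) i]
    congr 1
    rw [add_smul, one_smul]
    abel
  | pred k ih =>
    rw [← ih, ← D.b0inv (x - (-(k : ℤ)) • D.h i) i]
    congr 1
    rw [sub_smul, one_smul]
    abel

theorem ex_nu {I : Type} (D : Csp I) (i : I) (x : ℤ × ℤ) (k : ℤ) :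
    D.nu i (x - k • D.h i) = D.nu i x - k := by
  rw [map_sub, map_zsmul, D.nuh]
  simp

/-- the second component of the solution, before subtracting the fibre coordinate -/
def exA {I : Type} (D : Csp I) (P : Par I)
    (S : (a : Fin 3) → ℤ → ℤ → ZMod (P.p (none, a)))
    (A : (i : I) → Bool → (a : Fin 3) → ZMod (P.r i) → ZMod (P.p (some i, a)) →
      ZMod (P.p (some i, a)))
    (x : ℤ × ℤ) (z : (i : I) → ZMod (P.r i ^ 2)) : (j : Jx I) → ZMod (P.p j)
  | (none, a) => S a x.1 x.2
  | (some i, a) => A i (D.b0 x i) a (lo _ (z i)) (D.nu i x : ℤ)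

/-- The conditions have a solution. See notes/P043.md, Exist. -/
theorem exist_cond {I : Type} [DecidableEq I] [Fintype I] (D : Csp I) (P : Par I) :
    ∃ w : P.G → P.H, Eqv P.ι w ∧ Cond D P w := by
  obtain ⟨S, s1, s2, s3, s4⟩ := ex_special P
  have hb := fun (i : I) (st : Bool) =>
    ex_block (P.r i) (fun a => P.p (some i, a)) (P.frob i) st
  choose A col a1 a2 a3 using hb
  have hh := fun i : I => exists_hi (mulr (P.r i)) (mulr_injective _)
  choose hi hhi using hh
  have hdir : ∀ (g : P.G) (k : ℤ) (o : Option I),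
      g - k • P.dir D o = (g.1 - k • D.h (o.getD D.i0), g.2) := by
    intro g k o
    ext <;> simp [Par.dir]
  have hu : ∀ (g : P.G) (i : I), g - P.u i = (g.1, (g.2.1 - Pi.single i 1, g.2.2)) := by
    intro g i
    ext <;> simp [Par.u]
  have hconst : ∀ (i : I) (a : Fin 3) (g : P.G) (k : ℤ),
      (∀ n n', A i (D.b0 g.1 i) a (lo _ (g.2.1 i)) n = A i (D.b0 g.1 i) a (lo _ (g.2.1 i)) n') →
      exA D P S A (g.1 - k • D.h i) g.2.1 (some i, a) = exA D P S A g.1 g.2.1 (some i, a) := by
    intro i a g k h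
    simp only [exA]
    rw [ex_b0inv]
    exact h _ _
  have hsp : ∀ (a : Fin 3) (g : P.G) (k : ℤ),
      exA D P S A (g.1 - k • D.h D.i0) g.2.1 (none, a) = S a g.1.1 (g.1.2 - k) := by
    intro a g k
    simp [exA, D.h0]
  refine ⟨fun g => (fun i => col i (D.b0 g.1 i) (lo _ (g.2.1 i)) (fun a => (D.nu i g.1 : ℤ)) -
      hi i (g.2.1 i - (D.nu i g.1 : ℤ)), fun j => exA D P S A g.1 g.2.1 j - g.2.2 j), ?_, ?_⟩
  · rintro ⟨x, z, y⟩ η
    rw [P.ι_apply]
    have hlo : ∀ i, lo (P.r i) (z i + mulr _ (η.1 i)) = lo _ (z i) := by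
      intro i
      rw [map_add, lo_mulr, add_zero]
    ext i
    · simp only [Prod.fst_add, Prod.snd_add, add_zero, Pi.add_apply, Prod.fst_sub, Pi.sub_apply]
      rw [hlo, add_sub_right_comm, hhi]
      abel
    · simp only [Prod.fst_add, Prod.snd_add, add_zero, Pi.add_apply, Prod.snd_sub, Pi.sub_apply]
      have : exA D P S A x (z + fun i => mulr (P.r i) (η.1 i)) i = exA D P S A x z i := by
        obtain ⟨_ | i, a⟩ := i
        · rfl
        · simp only [exA, Pi.add_apply, hlo]
      rw [this]
      abel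
  · constructor
    · rintro ⟨_ | i', a⟩ i hj g
      · rw [hu]
        rfl
      · rw [hu]
        have hne : i' ≠ i := fun h => hj (by rw [h])
        simp only [exA, Pi.sub_apply, Pi.single_eq_of_ne hne, sub_zero]
    · rintro ⟨_ | i, a⟩ hj g
      · rw [hdir]
        simp only [Option.getD_none]
        rw [hsp, s1 a (fun h => hj (by rw [h]))]
        rfl
      · rw [hdir]
        simp only [Option.getD_some, exA]
        rw [ex_b0inv, ex_nu]
        congr 2
        push_cast
        simp
    · intro i g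
      rcases a2 i (D.b0 g.1 i) _ rfl (lo _ (g.2.1 i)) with h | h
      · refine ⟨if D.b0 g.1 i then 0 else 1, ?_⟩
        unfold Par.tau
        rw [hdir]
        simp only [Option.getD_some]
        rw [hconst i _ g _ h]
      · refine ⟨2, ?_⟩
        unfold Par.tau
        rw [hdir]
        simp only [Option.getD_some]
        rw [hconst i _ g _ h]
    · intro b hb g
      have hcore : b = (if D.b0 g.1 D.i0 then 0 else 1) → ∃ a : Fin 3,
          exA D P S A (g - P.tau D (sj D b a)).1 (g - P.tau D (sj D b a)).2.1 (sj D b a) -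
            (g - P.tau D (sj D b a)).2.2 (sj D b a) =
          exA D P S A g.1 g.2.1 (sj D b a) - g.2.2 (sj D b a) := by
        intro hb'
        rcases a2 D.i0 (D.b0 g.1 D.i0) b hb' (lo _ (g.2.1 D.i0)) with h | h
        · refine ⟨1, ?_⟩
          show exA D P S A (g - P.tau D (some D.i0, b)).1 (g - P.tau D (some D.i0, b)).2.1
            (some D.i0, b) - (g - P.tau D (some D.i0, b)).2.2 (some D.i0, b) =
            exA D P S A g.1 g.2.1 (some D.i0, b) - g.2.2 (some D.i0, b)
          unfold Par.tau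
          rw [hdir]
          simp only [Option.getD_some]
          rw [hconst _ _ g _ h]
        · refine ⟨2, ?_⟩
          show exA D P S A (g - P.tau D (some D.i0, 2)).1 (g - P.tau D (some D.i0, 2)).2.1
            (some D.i0, 2) - (g - P.tau D (some D.i0, 2)).2.2 (some D.i0, 2) =
            exA D P S A g.1 g.2.1 (some D.i0, 2) - g.2.2 (some D.i0, 2)
          unfold Par.tau
          rw [hdir]
          simp only [Option.getD_some]
          rw [hconst _ _ g _ h]
      have hspec : (∀ n n', S b g.1.1 n = S b g.1.1 n') → ∃ a : Fin 3,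
          exA D P S A (g - P.tau D (sj D b a)).1 (g - P.tau D (sj D b a)).2.1 (sj D b a) -
            (g - P.tau D (sj D b a)).2.2 (sj D b a) =
          exA D P S A g.1 g.2.1 (sj D b a) - g.2.2 (sj D b a) := by
        intro h
        refine ⟨0, ?_⟩
        show exA D P S A (g - P.tau D (none, b)).1 (g - P.tau D (none, b)).2.1
            (none, b) - (g - P.tau D (none, b)).2.2 (none, b) =
            exA D P S A g.1 g.2.1 (none, b) - g.2.2 (none, b)
        unfold Par.tau
        rw [hdir]
        simp only [Option.getD_none]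
        rw [hsp, h _ g.1.2]
        rfl
      have hst := D.b0sp g.1
      rcases ex_three b with rfl | rfl | rfl
      · by_cases h : 2 ≤ g.1.1 % 7
        · exact hcore (by simp [hst, h])
        · exact hspec (s2 _ h)
      · by_cases h : 2 ≤ g.1.1 % 7
        · exact hspec (s3 _ h)
        · exact hcore (by simp [hst, h])
      · exact absurd rfl hb
    · intro ω hω g
      have : ∃ i, ω i ≠ D.b0 g.1 i := by
        by_contra hc
        push Not at hc
        exact hω (by rw [funext hc]; exact D.b0mem _)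
      obtain ⟨i, hi⟩ := this
      refine ⟨i, ?_⟩
      rw [hu]
      simp only [gj, exA]
      congr 1
      apply a1
      cases h1 : ω i <;> cases h2 : D.b0 g.1 i <;> simp_all
    · intro i a g
      rw [← Finite.injective_iff_bijective]
      have hg : ∀ (k : ZMod (P.r i)) (ν : ZMod (P.p (some i, a))),
          g - k.val • P.mv D i - ν.val • P.tau D (some i, a) =
            (g.1 - (k.val * P.er i + ν.val * P.e (some i, a)) • D.h i,
              (g.2.1 - Pi.single i (k.val : ZMod (P.r i ^ 2)), g.2.2)) := by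
        intro k ν
        refine Prod.ext ?_ (Prod.ext ?_ ?_)
        · simp only [Par.mv, Par.tau, Par.dir, Par.u, Option.getD_some, Prod.fst_sub,
            Prod.smul_fst, Prod.fst_add, add_zero, add_smul, mul_smul, natCast_zsmul]
          abel
        · simp only [Par.mv, Par.tau, Par.dir, Par.u, Prod.fst_sub, Prod.snd_sub, Prod.smul_snd,
            Prod.smul_fst, Prod.fst_add, Prod.snd_add, smul_zero, zero_add, Prod.fst_zero,
            sub_zero]
          congr 1
          rw [← Pi.single_smul]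
          simp
        · simp [Par.mv, Par.tau, Par.dir, Par.u]
      have hn : ∀ (k : ZMod (P.r i)) (ν : ZMod (P.p (some i, a))),
          (fun c : Fin 3 => ((D.nu i g.1 - (k.val * P.er i + ν.val * P.e (some i, a)) : ℤ) :
            ZMod (P.p (some i, c)))) =
          Function.update (fun c : Fin 3 => ((D.nu i g.1 : ℤ) : ZMod (P.p (some i, c)))) a
            ((D.nu i g.1 : ℤ) - ν) := by
        intro k ν
        funext c
        have h1 : (P.er i : ZMod (P.p (some i, c))) = 0 :=
          (ZMod.intCast_zmod_eq_zero_iff_dvd _ _).2 (P.er_p _ _)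
        by_cases hc : c = a
        · subst hc
          have h2 : (P.e (some i, c) : ZMod (P.p (some i, c))) = ((1 : ℤ) : ZMod _) :=
            ex_cast_dvd (P.e_self _)
          rw [Function.update_self]
          push_cast
          rw [h1, h2]
          simp
        · have h2 : (P.e (some i, a) : ZMod (P.p (some i, c))) = 0 :=
            (ZMod.intCast_zmod_eq_zero_iff_dvd _ _).2 (P.e_ne _ _ (by simpa using hc))
          rw [Function.update_of_ne hc]
          push_cast
          rw [h1, h2]
          simp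
      have hz : ∀ (k : ZMod (P.r i)) (ν : ZMod (P.p (some i, a))),
          g.2.1 i - (k.val : ZMod (P.r i ^ 2)) -
            ((D.nu i g.1 - (k.val * P.er i + ν.val * P.e (some i, a)) : ℤ) : ZMod (P.r i ^ 2)) =
          g.2.1 i - (D.nu i g.1 : ℤ) := by
        intro k ν
        have h1 : (P.er i : ZMod (P.r i ^ 2)) = ((1 : ℤ) : ZMod _) := ex_cast_dvd (P.er_self _)
        have h2 : (P.e (some i, a) : ZMod (P.r i ^ 2)) = 0 :=
          (ZMod.intCast_zmod_eq_zero_iff_dvd _ _).2 (P.e_r _ _)
        push_cast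
        rw [h1, h2]
        push_cast
        ring
      have hl : ∀ k : ZMod (P.r i),
          lo (P.r i) (g.2.1 i - (k.val : ZMod (P.r i ^ 2))) = lo _ (g.2.1 i) - k := by
        intro k
        rw [map_sub, map_natCast]
        simp
      rintro ⟨k, ν⟩ ⟨k', ν'⟩ hh
      simp only [hg, exA, ex_b0inv, ex_nu, Pi.sub_apply, Pi.single_eq_same, hz, hl,
        Prod.mk.injEq, sub_left_inj] at hh
      obtain ⟨k1, k2⟩ := hh
      rw [hn, hn] at k1
      have e1 := congrFun (hn k ν) a
      have e2 := congrFun (hn k' ν') a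
      simp only [Function.update_self] at e1 e2
      rw [e1, e2] at k2
      have := @a3 i (D.b0 g.1 i) a (fun c : Fin 3 => ((D.nu i g.1 : ℤ) : ZMod (P.p (some i, c))))
        (lo _ (g.2.1 i) - k, (D.nu i g.1 : ℤ) - ν) (lo _ (g.2.1 i) - k', (D.nu i g.1 : ℤ) - ν')
        (Prod.ext k1 k2)
      simpa using this
    · intro b hb g
      rw [← Finite.injective_iff_bijective]
      have hg : ∀ (k : ZMod (P.p (none, 2))) (ν : ZMod (P.p (none, b))),
          g - k.val • P.ex - ν.val • P.tau D (none, b) =
            ((g.1.1 - k.val, g.1.2 - ν.val * P.e (none, b)), g.2) := by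
        intro k ν
        refine Prod.ext (Prod.ext ?_ ?_) ?_ <;> simp [Par.ex, Par.tau, Par.dir, D.h0]
      rintro ⟨k, ν⟩ ⟨k', ν'⟩ hh
      simp only [hg, exA, Prod.mk.injEq, sub_left_inj] at hh
      exact @s4 b hb g.1.1 g.1.2 (k, ν) (k', ν') (Prod.ext hh.1 hh.2)

end Vale.Agent.P043
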