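import Vale.Agent.P043.Defs

namespace Vale.Agent.P043

namespace LiftAux

variable {G H : Type} [AddCommGroup G] [AddCommGroup H] [DecidableEq G] {q : G →+ H}

theorem tiles_pre {s : H → G} (hs : ∀ f, q (s f) = f) {A : Set H} {F : Finset H}
    (h : Tiles A F) : Tiles (q ⁻¹' A) (F.image s) := by
  intro g
  obtain ⟨⟨a, f⟩, ⟨ha, hf, e⟩, hu⟩ := h (q g)
  refine ⟨(g - s f, s f), ⟨?_, Finset.mem_image_of_mem _ hf, by simp⟩, ?_⟩
  · simpa [hs, ← e] using ha
  · rintro ⟨b, g'⟩ ⟨hb, hg, e'⟩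
    obtain ⟨f', hf', rfl⟩ := Finset.mem_image.1 hg
    have := hu (q b, f') ⟨hb, hf', by rw [← e', map_add, hs]⟩
    obtain rfl : f' = f := congrArg Prod.snd this
    exact Prod.ext (eq_sub_of_add_eq e') rfl

theorem shift {s s' : H → G} (hs : ∀ f, q (s f) = f) {f0 : H} (he : ∀ f, f ≠ f0 → s' f = s f)
    {F : Finset H} (h0 : f0 ∈ F) {A : Set G} (h : Tiles A (F.image s)) (h' : Tiles A (F.image s'))
    {a : G} (ha : a ∈ A) : a + (s f0 - s' f0) ∈ A := by
  obtain ⟨⟨b, g⟩, ⟨hb, hg, e⟩, -⟩ := h' (a + s f0)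
  obtain ⟨f, hf, rfl⟩ := Finset.mem_image.1 hg
  rcases eq_or_ne f f0 with rfl | ne
  · rwa [← add_sub_assoc, ← e, add_sub_cancel_right]
  · have := (h (a + s f0)).unique (y₁ := (b, s f)) (y₂ := (a, s f0))
      ⟨hb, Finset.mem_image_of_mem _ hf, he f ne ▸ e⟩ ⟨ha, Finset.mem_image_of_mem _ h0, rfl⟩
    have := congrArg (fun p => q p.2) this
    simp only [hs] at this
    exact absurd this ne

theorem tiles_image {s : H → G} (hs : ∀ f, q (s f) = f) {A : Set G}
    (hA : ∀ a ∈ A, ∀ b, q b = q a → b ∈ A) {F : Finset H} (h : Tiles A (F.image s)) :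
    Tiles (q '' A) F := by
  intro g
  obtain ⟨⟨a, f⟩, ⟨ha, hf, e⟩, hu⟩ := h (s g)
  obtain ⟨f, hf', rfl⟩ := Finset.mem_image.1 hf
  have e1 : q a + f = g := by simpa [hs] using congrArg q e
  refine ⟨(q a, f), ⟨⟨a, ha, rfl⟩, hf', e1⟩, ?_⟩
  rintro ⟨_, f'⟩ ⟨⟨b, hb, rfl⟩, hf'', e'⟩
  have := hu (s g - s f', s f') ⟨hA b hb _ (by simp [hs, ← e']), Finset.mem_image_of_mem _ hf'',
    by simp⟩
  have := congrArg (fun p => q p.2) this
  simp only [hs] at this
  subst this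
  exact Prod.ext (add_right_cancel (e'.trans e1.symm)) rfl

end LiftAux
open LiftAux

/-- A system in `B × C` with `C` a finite cyclic group lifts to `B × ℤ`.
See notes/P043.md, Lift. -/
theorem lift_good {B C : Type} [AddCommGroup B] [AddCommGroup C] [Finite C] (π : ℤ →+ C)
    (hπ : Function.Surjective π) (L : List (Finset (B × C))) (hL : Good L) :
    ∃ L' : List (Finset (B × ℤ)), Good L' := by
  classical
  obtain ⟨M, hM⟩ : ∃ M : ℤ, ∀ k, π k = 0 ↔ M ∣ k := ⟨addOrderOf (π 1), fun k => by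
    rw [addOrderOf_dvd_iff_zsmul_eq_zero, ← map_zsmul, smul_eq_mul, mul_one]⟩
  choose σ hσ using hπ
  let q : B × ℤ →+ B × C := (AddMonoidHom.id B).prodMap π
  let s : B × C → B × ℤ := fun f => (f.1, σ f.2)
  have hs : ∀ f, q (s f) = f := fun f => Prod.ext rfl (hσ _)
  obtain ⟨A0, hA0⟩ := hL.1
  obtain ⟨F0, hF0⟩ : ∃ F0, F0 ∈ L := by
    by_contra! H
    exact hL.2 ⟨Set.univ, ⟨1, one_pos, fun _ _ _ => trivial⟩, fun F hF => absurd hF (H F)⟩
  obtain ⟨⟨_, f0⟩, ⟨-, h0, -⟩, -⟩ := hA0 F0 hF0 0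
  let s' := Function.update s f0 (s f0 + (0, M))
  have he : ∀ f, f ≠ f0 → s' f = s f := fun f h => Function.update_of_ne h _ _
  have e0 : s' f0 = s f0 + (0, M) := Function.update_self _ _ _
  have hs' : ∀ f, q (s' f) = f := fun f => by
    rcases eq_or_ne f f0 with rfl | h
    · rw [e0, map_add, hs, add_eq_left]
      exact Prod.ext rfl ((hM M).2 dvd_rfl)
    · rw [he f h, hs]
  refine ⟨F0.image s' :: L.map fun F => F.image s, ⟨q ⁻¹' A0, fun F hF => ?_⟩, ?_⟩
  · rcases List.mem_cons.1 hF with rfl | hF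
    · exact tiles_pre hs' (hA0 _ hF0)
    · obtain ⟨G, hG, rfl⟩ := List.mem_map.1 hF
      exact tiles_pre hs (hA0 _ hG)
  rintro ⟨A, ⟨P, hP, hp⟩, hA⟩
  have t1 := hA _ List.mem_cons_self
  have t0 := fun F hF => hA _ (List.mem_cons_of_mem _ (List.mem_map.2 ⟨F, hF, rfl⟩))
  have inv : ∀ k : ℤ, ∀ a ∈ A, a + (0, M * k) ∈ A := by
    intro k
    induction k using Int.induction_on with
    | zero => simp
    | succ k ih =>
      intro a ha
      have := shift hs' (fun f h => (he f h).symm) h0 t1 (t0 _ hF0) (ih a ha)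
      rw [e0, add_sub_cancel_left, add_assoc] at this
      simpa [mul_add] using this
    | pred k ih =>
      intro a ha
      have := shift hs he h0 (t0 _ hF0) t1 (ih a ha)
      rw [e0, sub_add_cancel_left, add_assoc] at this
      simpa [mul_sub, sub_eq_add_neg, mul_add] using this
  have sat : ∀ a ∈ A, ∀ b, q b = q a → b ∈ A := by
    intro a ha b e
    have e1 : b.1 = a.1 := (congrArg Prod.fst e :)
    have e2 : π b.2 = π a.2 := congrArg Prod.snd e
    obtain ⟨k, hk⟩ := (hM (b.2 - a.2)).1 (by rw [map_sub, e2, sub_self])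
    convert inv k a ha using 1
    exact Prod.ext (by simp [e1]) (by simp [← hk])
  refine hL.2 ⟨q '' A, ⟨P, hP, ?_⟩, fun F hF => tiles_image hs sat (t0 F hF)⟩
  rintro m _ ⟨a, ha, rfl⟩
  exact ⟨_, hp (s m) a ha, by rw [map_add, map_nsmul, hs]⟩

end Vale.Agent.P043
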