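import Vale.Agent.P043.Defs

namespace Vale.Agent.P043

namespace MergeAux

variable {B : Type} [AddCommGroup B]

/-- the tile used at height `t` -/
def sel (F1 F2 : Finset (B × ℤ)) (t : ℤ) : Finset (B × ℤ) :=
  if t % 6 = 0 ∨ t % 6 = 1 ∨ t % 6 = 3 then F1 else F2

def IsMg (F1 F2 F : Finset (B × ℤ)) : Prop := ∀ x t, (x, t) ∈ F ↔ (x, t / 6) ∈ sel F1 F2 t

omit [AddCommGroup B] in
theorem exists_mg (F1 F2 : Finset (B × ℤ)) : ∃ F, IsMg F1 F2 F := by
  classical
  refine ⟨(((F1 ∪ F2) ×ˢ Finset.Ico (0 : ℤ) 6).image fun p => (p.1.1, 6 * p.1.2 + p.2)).filter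
    fun p => (p.1, p.2 / 6) ∈ sel F1 F2 p.2, fun x t => ?_⟩
  rw [Finset.mem_filter, and_iff_right_iff_imp]
  intro h
  refine Finset.mem_image.2 ⟨((x, t / 6), t % 6), ?_, Prod.ext rfl (by simp only; omega)⟩
  rw [Finset.mem_product, Finset.mem_union, Finset.mem_Ico]
  refine ⟨?_, by simp only; omega⟩
  rw [sel] at h
  split_ifs at h
  exacts [.inl h, .inr h]

def up (A : Set (B × ℤ)) : Set (B × ℤ) := {p | p.2 % 6 = 0 ∧ (p.1, p.2 / 6) ∈ A}

def dn (A : Set (B × ℤ)) : Set (B × ℤ) := {p | ∃ c, 0 ≤ c ∧ c < 6 ∧ (p.1, 6 * p.2 + c) ∈ A}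

theorem tiles_up {F1 F2 F : Finset (B × ℤ)} (h : IsMg F1 F2 F) {A : Set (B × ℤ)}
    (h1 : Tiles A F1) (h2 : Tiles A F2) : Tiles (up A) F := by
  rintro ⟨x, t⟩
  have hs : Tiles A (sel F1 F2 t) := by
    rw [sel]
    split_ifs
    exacts [h1, h2]
  have sc : ∀ s : ℤ, s % 6 = t % 6 → sel F1 F2 s = sel F1 F2 t := fun s e => by
    simp only [sel, e]
  obtain ⟨⟨⟨a, a'⟩, f, f'⟩, ⟨ha, hf, e⟩, hu⟩ := hs (x, t / 6)
  simp only [Prod.mk_add_mk, Prod.mk.injEq] at e
  refine ⟨((a, 6 * a'), (f, 6 * f' + t % 6)), ⟨⟨by simp, by simpa using ha⟩, ?_,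
    Prod.ext e.1 (by simp only [Prod.snd_add]; omega)⟩, ?_⟩
  · rw [h, sc _ (by omega), show (6 * f' + t % 6) / 6 = f' by omega]
    exact hf
  · rintro ⟨⟨b, b'⟩, g, g'⟩ ⟨⟨hb, hb'⟩, hg, e'⟩
    simp only [Prod.mk_add_mk, Prod.mk.injEq] at e' hb hb'
    rw [h, sc _ (by omega)] at hg
    have := hu ((b, b' / 6), (g, g' / 6)) ⟨hb', hg, Prod.ext e'.1 (by
      simp only [Prod.snd_add]; omega)⟩
    simp only [Prod.mk.injEq] at this ⊢
    exact ⟨⟨this.1.1, by omega⟩, this.2.1, by omega⟩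

theorem column {P Q : ℤ → Prop}
    (hP : ∀ t t', P t → P t' → t - t' ≤ 3 → t' - t ≤ 3 → t = t')
    (hQ : ∀ t t', Q t → Q t' → t - t' ≤ 3 → t' - t ≤ 3 → t = t')
    (hPQ : ∀ t t', P t → Q t' → ¬ (t' - t = 1 ∨ (1 ≤ t - t' ∧ t - t' ≤ 5)))
    (hc : ∀ s, P s ∨ P (s - 1) ∨ P (s - 3) ∨ Q (s - 2) ∨ Q (s - 4) ∨ Q (s - 5)) :
    (∀ t, P t ↔ Q t) ∧ (∀ t t', P t → P t' → t - t' ≤ 5 → t' - t ≤ 5 → t = t') ∧
      ∀ z, ∃ c, 0 ≤ c ∧ c < 6 ∧ P (6 * z + c) := by
  have r1 : ∀ t, P t → Q t := fun t h => by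
    rcases hc (t + 2) with k | k | k | k | k | k
    · have := hP _ _ h k; omega
    · have := hP _ _ h k; omega
    · have := hP _ _ h k; omega
    · simpa using k
    · have := hPQ _ _ h k; omega
    · have := hPQ _ _ h k; omega
  have r2 : ∀ t, Q t → P t := fun t h => by
    rcases hc (t + 3) with k | k | k | k | k | k
    · have := hPQ _ _ k h; omega
    · have := hPQ _ _ k h; omega
    · simpa using k
    · have := hQ _ _ h k; omega
    · have := hQ _ _ h k; omega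
    · have := hQ _ _ h k; omega
  refine ⟨fun t => ⟨r1 t, r2 t⟩, fun t t' h h' a b => ?_, fun z => ?_⟩
  · have := hPQ _ _ h (r1 _ h')
    have := hPQ _ _ h' (r1 _ h)
    omega
  · have key : ∀ s, P s → 6 * z ≤ s → s < 6 * z + 6 → ∃ c, 0 ≤ c ∧ c < 6 ∧ P (6 * z + c) :=
      fun s h a b => ⟨s - 6 * z, by omega, by omega, by simpa using h⟩
    rcases hc (6 * z + 5) with k | k | k | k | k | k
    exacts [key _ k (by omega) (by omega), key _ k (by omega) (by omega),
      key _ k (by omega) (by omega), key _ (r2 _ k) (by omega) (by omega),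
      key _ (r2 _ k) (by omega) (by omega), key _ (r2 _ k) (by omega) (by omega)]

/-- a piece of `G` sits at position `t` of column `x` -/
def Pc (A : Set (B × ℤ)) (G : Finset (B × ℤ)) (x : B) (t : ℤ) : Prop :=
  ∃ a ∈ A, ∃ f ∈ G, a.1 + f.1 = x ∧ a.2 + 6 * f.2 = t

theorem tiles_dn {F1 F2 F : Finset (B × ℤ)} (h : IsMg F1 F2 F) {A : Set (B × ℤ)}
    (hA : Tiles A F) : Tiles (dn A) F1 ∧ Tiles (dn A) F2 := by
  have mem : ∀ (e : ℤ) (f : B × ℤ), 0 ≤ e → e < 6 → f ∈ sel F1 F2 e → (f.1, 6 * f.2 + e) ∈ F := by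
    intro e f a b hf
    rw [h, show (6 * f.2 + e) / 6 = f.2 by omega]
    simp only [sel, show (6 * f.2 + e) % 6 = e % 6 by omega]
    exact hf
  have uni : ∀ (e e' : ℤ) (a a' f f' : B × ℤ), 0 ≤ e → e < 6 → 0 ≤ e' → e' < 6 → a ∈ A → a' ∈ A →
      f ∈ sel F1 F2 e → f' ∈ sel F1 F2 e' → a.1 + f.1 = a'.1 + f'.1 →
      a.2 + 6 * f.2 + e = a'.2 + 6 * f'.2 + e' → e = e' ∧ f = f' := by
    intro e e' a a' f f' b1 b2 b3 b4 ha ha' hf hf' e1 e2
    have := (hA (a + (f.1, 6 * f.2 + e))).unique (y₁ := (a, (f.1, 6 * f.2 + e)))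
      (y₂ := (a', (f'.1, 6 * f'.2 + e'))) ⟨ha, mem e f b1 b2 hf, rfl⟩
      ⟨ha', mem e' f' b3 b4 hf', Prod.ext e1.symm (by simp only [Prod.snd_add]; omega)⟩
    simp only [Prod.mk.injEq] at this
    exact ⟨by omega, Prod.ext this.2.1 (by omega)⟩
  have pu : ∀ (e e' : ℤ) x t t', 0 ≤ e → e < 6 → 0 ≤ e' → e' < 6 → Pc A (sel F1 F2 e) x t →
      Pc A (sel F1 F2 e') x t' → t + e = t' + e' → e = e' := by
    rintro e e' x t t' b1 b2 b3 b4 ⟨a, ha, f, hf, e1, rfl⟩ ⟨a', ha', f', hf', e2, rfl⟩ e3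
    exact (uni e e' a a' f f' b1 b2 b3 b4 ha ha' hf hf' (e1.trans e2.symm) e3).1
  have s0 : sel F1 F2 0 = F1 := rfl
  have s1 : sel F1 F2 1 = F1 := rfl
  have s2 : sel F1 F2 2 = F2 := rfl
  have s3 : sel F1 F2 3 = F1 := rfl
  have s4 : sel F1 F2 4 = F2 := rfl
  have s5 : sel F1 F2 5 = F2 := rfl
  have col := fun x => column (P := Pc A F1 x) (Q := Pc A F2 x)
    (fun t t' p p' a b => by
      have := pu 0 1 x t t' (by omega) (by omega) (by omega) (by omega) p p'
      have := pu 0 3 x t t' (by omega) (by omega) (by omega) (by omega) p p'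
      have := pu 1 3 x t t' (by omega) (by omega) (by omega) (by omega) p p'
      have := pu 1 0 x t t' (by omega) (by omega) (by omega) (by omega) p p'
      have := pu 3 0 x t t' (by omega) (by omega) (by omega) (by omega) p p'
      have := pu 3 1 x t t' (by omega) (by omega) (by omega) (by omega) p p'
      omega)
    (fun t t' p p' a b => by
      have := pu 2 4 x t t' (by omega) (by omega) (by omega) (by omega) p p'
      have := pu 2 5 x t t' (by omega) (by omega) (by omega) (by omega) p p'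
      have := pu 4 5 x t t' (by omega) (by omega) (by omega) (by omega) p p'
      have := pu 4 2 x t t' (by omega) (by omega) (by omega) (by omega) p p'
      have := pu 5 2 x t t' (by omega) (by omega) (by omega) (by omega) p p'
      have := pu 5 4 x t t' (by omega) (by omega) (by omega) (by omega) p p'
      omega)
    (fun t t' p p' => by
      have := pu 0 2 x t t' (by omega) (by omega) (by omega) (by omega) p p'
      have := pu 0 4 x t t' (by omega) (by omega) (by omega) (by omega) p p'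
      have := pu 0 5 x t t' (by omega) (by omega) (by omega) (by omega) p p'
      have := pu 1 2 x t t' (by omega) (by omega) (by omega) (by omega) p p'
      have := pu 1 4 x t t' (by omega) (by omega) (by omega) (by omega) p p'
      have := pu 3 2 x t t' (by omega) (by omega) (by omega) (by omega) p p'
      omega)
    (fun s => by
      obtain ⟨⟨a, f, f'⟩, ⟨ha, hf, e⟩, -⟩ := hA (x, s)
      rw [h] at hf
      have e1 : a.1 + f = x := congrArg Prod.fst e
      have e2 : a.2 + f' = s := congrArg Prod.snd e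
      have k : ∀ e : ℤ, f' % 6 = e % 6 → 0 ≤ e → e < 6 → Pc A (sel F1 F2 e) x (s - e) :=
        fun e he _ _ => ⟨a, ha, (f, f' / 6), by simpa only [sel, he] using hf, e1, by
          simp only; omega⟩
      have : f' % 6 = 0 % 6 ∨ f' % 6 = 1 % 6 ∨ f' % 6 = 3 % 6 ∨ f' % 6 = 2 % 6 ∨
        f' % 6 = 4 % 6 ∨ f' % 6 = 5 % 6 := by omega
      refine this.imp (fun e => ?_) (.imp (fun e => k 1 e (by omega) (by omega))
        (.imp (fun e => k 3 e (by omega) (by omega)) (.imp (fun e => k 2 e (by omega) (by omega))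
        (.imp (fun e => k 4 e (by omega) (by omega)) fun e => k 5 e (by omega) (by omega)))))
      simpa [s0] using k 0 e (by omega) (by omega))
  have fin : ∀ e : ℤ, 0 ≤ e → e < 6 → (∀ x t, Pc A F1 x t ↔ Pc A (sel F1 F2 e) x t) →
      Tiles (dn A) (sel F1 F2 e) := by
    rintro e b1 b2 he ⟨x, z⟩
    obtain ⟨c, c1, c2, hc⟩ := (col x).2.2 z
    obtain ⟨a, ha, f, hf, e1, e2⟩ := (he _ _).1 hc
    refine ⟨((a.1, z - f.2), f), ⟨⟨c, c1, c2, ?_⟩, hf, Prod.ext e1 (by simp)⟩, ?_⟩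
    · rwa [show 6 * (z - f.2) + c = a.2 by omega]
    · rintro ⟨b, g⟩ ⟨⟨c', c3, c4, hb⟩, hg, e3⟩
      have e4 : b.1 + g.1 = x := congrArg Prod.fst e3
      have e5 : b.2 + g.2 = z := congrArg Prod.snd e3
      have e6 := (col x).2.1 _ _ hc ((he x (6 * z + c')).2
        ⟨_, hb, g, hg, e4, by simp only; omega⟩) (by omega) (by omega)
      obtain rfl := (uni e e _ a g f b1 b2 b1 b2 hb ha hg hf (e4.trans e1.symm)
        (by simp only; omega)).2
      refine Prod.ext (Prod.ext (add_right_cancel (e4.trans e1.symm)) ?_) rfl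
      simp only
      omega
  exact ⟨fin 0 (by omega) (by omega) fun _ _ => Iff.rfl,
    fin 2 (by omega) (by omega) fun x => (col x).1⟩

theorem per_dn {A : Set (B × ℤ)} (h : Per A) : Per (dn A) := by
  obtain ⟨P, hP, h⟩ := h
  refine ⟨P, hP, ?_⟩
  rintro m a ⟨c, c1, c2, ha⟩
  refine ⟨c, c1, c2, ?_⟩
  convert h (m.1, 6 * m.2) _ ha using 1
  refine Prod.ext rfl ?_
  simp only [Prod.snd_add, Prod.smul_snd, nsmul_eq_mul]
  ring

end MergeAux
open MergeAux

/-- A system of tiles in `B × ℤ` can be merged into one tile. See notes/P043.md, Merge. -/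
theorem merge_good {B : Type} [AddCommGroup B] (L : List (Finset (B × ℤ))) (hL : Good L) :
    ∃ F : Finset (B × ℤ), Good [F] := by
  choose mg hmg using exists_mg (B := B)
  induction hn : L.length using Nat.strong_induction_on generalizing L with
  | _ n ih =>
    rcases L with _ | ⟨F1, _ | ⟨F2, L⟩⟩
    · exact absurd ⟨Set.univ, ⟨1, one_pos, fun _ _ _ => trivial⟩, by simp⟩ hL.2
    · exact ⟨F1, hL⟩
    refine ih _ (by simp [← hn]) (mg F1 F2 :: L.map fun F => mg F F) ⟨?_, ?_⟩ rfl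
    · obtain ⟨A, hA⟩ := hL.1
      refine ⟨up A, fun F hF => ?_⟩
      rcases List.mem_cons.1 hF with rfl | hF
      · exact tiles_up (hmg _ _) (hA _ (by simp)) (hA _ (by simp))
      · obtain ⟨G, hG, rfl⟩ := List.mem_map.1 hF
        exact tiles_up (hmg _ _) (hA _ (by simp [hG])) (hA _ (by simp [hG]))
    · rintro ⟨A, hp, hA⟩
      refine hL.2 ⟨dn A, per_dn hp, fun F hF => ?_⟩
      have h0 := tiles_dn (hmg F1 F2) (hA _ (by simp))
      rcases List.mem_cons.1 hF with rfl | hF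
      · exact h0.1
      rcases List.mem_cons.1 hF with rfl | hF
      · exact h0.2
      · exact (tiles_dn (hmg F F) (hA _ (List.mem_cons_of_mem _ (List.mem_map.2 ⟨F, hF, rfl⟩)))).1

end Vale.Agent.P043
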