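import Vale.Agent.P043.Par

namespace Vale.Agent.P043

theorem crt_surj {A B : Type} [Fintype A] [Fintype B] (f : A → ℕ) (g : B → ℕ)
    (h : Pairwise (Function.onFun Nat.Coprime (Sum.elim f g))) :
    Function.Surjective
      (Int.castAddHom (((i : A) → ZMod (f i)) × ((j : B) → ZMod (g j)))) := by
  classical
  rintro ⟨x, y⟩
  let z : (k : A ⊕ B) → ZMod (Sum.elim f g k) := fun k =>
    match k with
    | Sum.inl i => x i
    | Sum.inr j => y j
  obtain ⟨t, ht⟩ := (ZMod.prodEquivPi (Sum.elim f g) h).surjective z
  obtain ⟨n, rfl⟩ := ZMod.intCast_surjective t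
  rw [map_intCast] at ht
  refine ⟨n, ?_⟩
  ext k
  · exact congrFun ht (Sum.inl k)
  · exact congrFun ht (Sum.inr k)

theorem exists_par (I : Type) [DecidableEq I] [Fintype I] : Nonempty (Par I) := by
  classical
  set n := Fintype.card I with hn
  let e : I ≃ Fin n := Fintype.equivFin I
  let ix : Jx I → ℕ := fun j =>
    match j with
    | (none, a) => ![0, 2, 3] a
    | (some i, a) => 4 + 3 * (e i : ℕ) + a
  have ix_lt : ∀ j, ix j < 4 + 3 * n + 3 := by
    rintro ⟨_ | i, a⟩
    · fin_cases a <;> simp [ix] <;> omega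
    · have := (e i).2
      have := a.2
      simp only [ix]; omega
  have ix_inj : Function.Injective ix := by
    rintro ⟨_ | i, a⟩ ⟨_ | i', a'⟩ h
    · fin_cases a <;> fin_cases a' <;> simp_all [ix]
    · fin_cases a <;> simp [ix] at h <;> omega
    · fin_cases a' <;> simp [ix] at h <;> omega
    · have h1 := a.2
      have h2 := a'.2
      simp only [ix] at h
      have h3 : (e i : ℕ) = e i' := by omega
      have h4 : (a : ℕ) = a' := by omega
      rw [e.injective (Fin.ext h3), Fin.ext h4]
  let N := 4 + 3 * n + 3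
  let B := Nat.nth Nat.Prime N
  let p : Jx I → ℕ := fun j => Nat.nth Nat.Prime (ix j)
  let r : I → ℕ := fun i => Nat.nth Nat.Prime (N + B * B + e i)
  have inj := Nat.nth_injective Nat.infinite_setOfPred_prime
  have hp : ∀ j, (p j).Prime := fun j => Nat.prime_nth_prime _
  have hr : ∀ i, (r i).Prime := fun i => Nat.prime_nth_prime _
  have pB : ∀ j, p j ≤ B := fun j =>
    (Nat.nth_monotone Nat.infinite_setOfPred_prime) (ix_lt j).le
  have rB : ∀ i, B * B ≤ r i := fun i => by
    have := Nat.add_two_le_nth_prime (N + B * B + e i)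
    simp only [r]; omega
  have pinj : Function.Injective p := fun a b h => ix_inj (inj h)
  have rinj : Function.Injective r := fun a b h => by
    have := inj h
    exact e.injective (Fin.ext (by omega))
  have rp : ∀ i j, r i ≠ p j := fun i j h => by
    have := inj h
    have := ix_lt j
    omega
  have cop : Pairwise (Function.onFun Nat.Coprime (Sum.elim (fun i => r i ^ 2) p)) := by
    rintro (i | j) (i' | j') hne
    · exact Nat.Coprime.pow _ _ ((Nat.coprime_primes (hr i) (hr i')).2
        fun h => hne (congrArg Sum.inl (rinj h)))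
    · exact Nat.Coprime.pow_left _ ((Nat.coprime_primes (hr i) (hp j')).2 (rp _ _))
    · exact Nat.Coprime.pow_right _ ((Nat.coprime_primes (hp j) (hr i')).2 (rp _ _).symm)
    · exact (Nat.coprime_primes (hp j) (hp j')).2 fun h => hne (congrArg Sum.inr (pinj h))
  have surj := crt_surj (fun i => r i ^ 2) p cop
  choose ee hee using fun j : Jx I => surj (0, Pi.single j 1)
  choose er her using fun i : I => surj (Pi.single i 1, 0)
  refine ⟨⟨r, p, fun i => (hr i).ne_zero, fun j => (hp j).two_le, Nat.nth_prime_zero_eq_two,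
    Nat.nth_prime_two_eq_five, Nat.nth_prime_three_eq_seven, ?_, ?_, ee, er, ?_, ?_, ?_, ?_, ?_,
    surj⟩⟩
  · intro i h
    exact rp i (some i, 2) ((Nat.prime_dvd_prime_iff_eq (hp (some i, 2)) (hr i)).1 h).symm
  · intro i c hc
    have hcop : Nat.Coprime (p (some i, c)) (p (some i, 2)) :=
      (Nat.coprime_primes (hp (some i, c)) (hp (some i, 2))).2
        fun h => hc (congrArg Prod.snd (@pinj (some i, c) (some i, 2) h))
    obtain ⟨a, b, h⟩ := Nat.exists_add_mul_eq_of_gcd_dvd_of_mul_pred_le (p (some i, c))
      (p (some i, 2)) (r i) (by rw [hcop]; exact one_dvd _)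
      (le_trans (Nat.mul_le_mul ((Nat.pred_le _).trans (pB (some i, c)))
        ((Nat.pred_le _).trans (pB (some i, 2))))
        (rB i))
    exact ⟨a, b, h.symm⟩
  · intro j
    have := congrFun (congrArg Prod.snd (hee j)) j
    rw [← ZMod.intCast_zmod_eq_zero_iff_dvd]
    push_cast
    rw [sub_eq_zero]
    simpa using this
  · intro j j' hne
    have := congrFun (congrArg Prod.snd (hee j)) j'
    rw [← ZMod.intCast_zmod_eq_zero_iff_dvd]
    simpa [Pi.single_eq_of_ne hne] using this
  · intro j i
    have := congrFun (congrArg Prod.fst (hee j)) i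
    rw [← ZMod.intCast_zmod_eq_zero_iff_dvd]
    simpa using this
  · intro i
    have := congrFun (congrArg Prod.fst (her i)) i
    rw [← ZMod.intCast_zmod_eq_zero_iff_dvd]
    push_cast
    rw [sub_eq_zero]
    simpa using this
  · intro i j
    have := congrFun (congrArg Prod.snd (her i)) j
    rw [← ZMod.intCast_zmod_eq_zero_iff_dvd]
    simpa using this

end Vale.Agent.P043
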