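import Vale.Agent.P043.Defs

namespace Vale.Agent.P043

/-- the holes of the cube -/
def rgC {d : ℕ} (j : Fin d) : Fin d → ℤ := fun i => if i = j then 1 else 3

/-- the cube with holes and bumps -/
def RgIn {d : ℕ} (ρ : Fin d → ℤ) : Prop :=
  ((∀ i, 0 ≤ ρ i ∧ ρ i < 5) ∧ ∀ j, ρ ≠ rgC j) ∨ ∃ j, ρ = rgC j + Pi.single j 5

theorem rg_val {d : ℕ} (j i : Fin d) : rgC j i = 1 ∨ rgC j i = 3 := by
  unfold rgC
  split_ifs <;> simp

theorem rg_in_of {d : ℕ} {ρ : Fin d → ℤ} (h : ∀ i, 0 ≤ ρ i ∧ ρ i < 5) (k : Fin d)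
    (h1 : ρ k ≠ 1) (h3 : ρ k ≠ 3) : RgIn ρ := by
  refine Or.inl ⟨h, fun j hj => ?_⟩
  have := rg_val j k
  rw [hj] at h1 h3
  tauto

theorem rg_bump {d : ℕ} (j i : Fin d) :
    (rgC j + Pi.single j 5 : Fin d → ℤ) i = if i = j then 6 else 3 := by
  by_cases h : i = j
  · subst h
    simp [rgC]
  · simp [rgC, h]

theorem rg_bound {d : ℕ} {ρ : Fin d → ℤ} (h : RgIn ρ) (i : Fin d) : 0 ≤ ρ i ∧ ρ i < 7 := by
  rcases h with ⟨h, -⟩ | ⟨j, rfl⟩
  · have := h i
    omega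
  · rw [rg_bump]
    split_ifs <;> omega

theorem rg_exists {d : ℕ} (v : Fin d → ℤ) : ∃ ρ h, RgIn ρ ∧ v = (5 : ℤ) • h + ρ := by
  by_cases hc : ∃ j, (fun i => v i % 5) = rgC j
  · obtain ⟨j, hj⟩ := hc
    refine ⟨rgC j + Pi.single j 5, fun i => v i / 5 - (Pi.single j 1 : Fin d → ℤ) i,
      Or.inr ⟨j, rfl⟩, ?_⟩
    funext i
    have h1 : v i % 5 = rgC j i := congrFun hj i
    by_cases h : i = j
    · subst h
      simp only [Pi.add_apply, Pi.smul_apply, Pi.single_eq_same, smul_eq_mul]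
      omega
    · simp only [Pi.add_apply, Pi.smul_apply, Pi.single_eq_of_ne h, smul_eq_mul]
      omega
  · push Not at hc
    refine ⟨fun i => v i % 5, fun i => v i / 5, Or.inl ⟨fun i => by dsimp only; omega, hc⟩, ?_⟩
    funext i
    simp only [Pi.add_apply, Pi.smul_apply, smul_eq_mul]
    omega

theorem rg_unique {d : ℕ} {ρ ρ' : Fin d → ℤ} (h : RgIn ρ) (h' : RgIn ρ')
    (hd : ∀ i, (5 : ℤ) ∣ ρ i - ρ' i) : ρ = ρ' := by
  have aux : ∀ {σ : Fin d → ℤ} (j : Fin d), (∀ i, 0 ≤ σ i ∧ σ i < 5) →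
      (∀ i, (5 : ℤ) ∣ σ i - (rgC j + Pi.single j 5 : Fin d → ℤ) i) → σ = rgC j := by
    intro σ j h1 h2
    funext i
    have a1 := h1 i
    have a2 := h2 i
    rw [rg_bump] at a2
    unfold rgC
    split_ifs at a2 ⊢ <;> omega
  rcases h with ⟨h, hn⟩ | ⟨j, rfl⟩ <;> rcases h' with ⟨h', hn'⟩ | ⟨j', rfl⟩
  · funext i
    have a1 := h i
    have a2 := h' i
    have a3 := hd i
    omega
  · exact absurd (aux j' h hd) (hn j')
  · exact absurd (aux j h' (fun i => by have := hd i; omega)) (hn' j)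
  · by_cases hj : j = j'
    · rw [hj]
    · have := hd j
      rw [rg_bump, rg_bump, if_pos rfl, if_neg hj] at this
      omega

theorem rg_near {d : ℕ} (k : Fin d) (δ : Fin d → ℤ) (h : ∀ i, -1 ≤ δ i ∧ δ i ≤ 1)
    (h0 : δ ≠ 0) : RgIn (rgC k + δ) := by
  refine Or.inl ⟨fun i => ?_, fun j hj => ?_⟩
  · have a1 := h i
    have a2 := rg_val k i
    simp only [Pi.add_apply]
    omega
  · by_cases hjk : j = k
    · subst hjk
      exact h0 (by simpa using hj)
    · have a1 := congrFun hj k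
      have a2 := h k
      simp only [Pi.add_apply, rgC, if_pos, if_neg (Ne.symm hjk)] at a1
      omega

/-- tilings by the rigid cube -/
def RgT {d : ℕ} (B : Set (Fin d → ℤ)) : Prop :=
  (∀ g, ∃ b ∈ B, ∃ ρ, RgIn ρ ∧ b + ρ = g) ∧
    ∀ b ∈ B, ∀ b' ∈ B, ∀ ρ ρ', RgIn ρ → RgIn ρ' → b + ρ = b' + ρ' → b = b'

theorem rg_single {d : ℕ} (k : Fin d) (s : ℤ) (hs : s = 1 ∨ s = -1) :
    (∀ i, -1 ≤ (Pi.single k s : Fin d → ℤ) i ∧ (Pi.single k s : Fin d → ℤ) i ≤ 1) ∧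
      (Pi.single k s : Fin d → ℤ) ≠ 0 := by
  refine ⟨fun i => ?_, fun h => ?_⟩
  · by_cases h : i = k
    · subst h
      simp only [Pi.single_eq_same]
      omega
    · simp [Pi.single_eq_of_ne h]
  · have := congrFun h k
    simp only [Pi.single_eq_same, Pi.zero_apply] at this
    omega

theorem rg_step {d : ℕ} (i0 i1 : Fin d) (h01 : i0 ≠ i1) {B : Set (Fin d → ℤ)} (hB : RgT B)
    (k : Fin d) {b : Fin d → ℤ} (hb : b ∈ B) : b - Pi.single k 5 ∈ B := by
  obtain ⟨b', hb', ρ, hρ, he⟩ := hB.1 (b + rgC k)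
  rcases hρ with ⟨h, hn⟩ | ⟨j, rfl⟩
  · exfalso
    have key : ∀ (i : Fin d) (s : ℤ), (s = 1 ∨ s = -1) → ¬ RgIn (ρ + Pi.single i s) := by
      intro i s hs hin
      have h1 := rg_single i s hs
      have h2 := hB.2 b hb b' hb' _ _ (rg_near k _ h1.1 h1.2) hin
        (by rw [← add_assoc, ← add_assoc, he])
      subst h2
      exact hn k (add_left_cancel he)
    have cube : ∀ (i : Fin d) (s : ℤ), 0 ≤ ρ i + s → ρ i + s < 5 → ∀ l,
        0 ≤ (ρ + Pi.single i s : Fin d → ℤ) l ∧ (ρ + Pi.single i s : Fin d → ℤ) l < 5 := by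
      intro i s a1 a2 l
      by_cases hl : l = i
      · subst hl
        simp only [Pi.add_apply, Pi.single_eq_same]
        exact ⟨a1, a2⟩
      · simp only [Pi.add_apply, Pi.single_eq_of_ne hl, add_zero]
        exact h l
    have a0 := h i0
    have a1 := h i1
    by_cases hc : ρ i0 = 1 ∨ ρ i0 = 3
    · refine key i0 1 (Or.inl rfl) (rg_in_of (cube i0 1 (by omega) (by omega)) i0 ?_ ?_) <;>
        simp only [Pi.add_apply, Pi.single_eq_same] <;> omega
    · by_cases hc' : ρ i1 < 4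
      · refine key i1 1 (Or.inl rfl) (rg_in_of (cube i1 1 (by omega) (by omega)) i0 ?_ ?_) <;>
          simp only [Pi.add_apply, Pi.single_eq_of_ne h01] <;> omega
      · refine key i1 (-1) (Or.inr rfl)
          (rg_in_of (cube i1 (-1) (by omega) (by omega)) i0 ?_ ?_) <;>
          simp only [Pi.add_apply, Pi.single_eq_of_ne h01] <;> omega
  · by_cases hjk : j = k
    · subst hjk
      have : b - Pi.single j 5 = b' := by
        funext i
        have := congrFun he i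
        simp only [Pi.add_apply, Pi.sub_apply] at this ⊢
        omega
      rw [this]
      exact hb'
    · exfalso
      have hval : ∀ i, (b - b') i = if i = j then 3 else if i = k then 2 else 0 := by
        intro i
        have h1 := congrFun he i
        have h2 := rg_bump j i
        simp only [Pi.add_apply, Pi.sub_apply] at h1 h2 ⊢
        rw [h2] at h1
        unfold rgC at h1
        by_cases a : i = j
        · have a' : i ≠ k := fun h => hjk (a.symm.trans h)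
          rw [if_pos a, if_neg a'] at h1
          rw [if_pos a]
          omega
        · rw [if_neg a] at h1 ⊢
          split_ifs at h1 ⊢ <;> omega
      have hk : (b - b') k = 2 := by rw [hval, if_neg (Ne.symm hjk), if_pos rfl]
      have h1 : RgIn (b - b') := by
        refine rg_in_of (fun i => ?_) k (by omega) (by omega)
        rw [hval]
        split_ifs <;> omega
      have h0 : RgIn (0 : Fin d → ℤ) := rg_in_of (fun i => by simp) k (by simp) (by simp)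
      have h2 := hB.2 b hb b' hb' _ _ h0 h1 (by abel)
      rw [h2] at hk
      simp at hk

theorem rg_many {d : ℕ} (i0 i1 : Fin d) (h01 : i0 ≠ i1) {B : Set (Fin d → ℤ)} (hB : RgT B)
    (n : Fin d → ℕ) {b : Fin d → ℤ} (hb : b ∈ B) : (b - fun i => 5 * (n i : ℤ)) ∈ B := by
  let S : AddSubmonoid (Fin d → ℤ) :=
    { carrier := {v | ∀ b ∈ B, b - v ∈ B}
      zero_mem' := fun b hb => by simpa using hb
      add_mem' := fun {u v} hu hv b hb => by
        rw [← sub_sub]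
        exact hv _ (hu b hb) }
  have h1 : (fun i => 5 * (n i : ℤ)) = ∑ k, n k • (Pi.single k 5 : Fin d → ℤ) := by
    funext i
    rw [Finset.sum_apply, Finset.sum_eq_single i]
    · simp [mul_comm]
    · intro k _ hk
      simp [Pi.single_eq_of_ne hk.symm]
    · simp
  have h2 : (∑ k, n k • (Pi.single k 5 : Fin d → ℤ)) ∈ S :=
    S.sum_mem fun k _ => S.nsmul_mem (fun b hb => rg_step i0 i1 h01 hB k hb) _
  rw [h1]
  exact h2 b hb

theorem rg_dvd {d : ℕ} (i0 i1 : Fin d) (h01 : i0 ≠ i1) {B : Set (Fin d → ℤ)} (hB : RgT B)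
    {a b : Fin d → ℤ} (ha : a ∈ B) (hb : b ∈ B) (i : Fin d) : (5 : ℤ) ∣ a i - b i := by
  have ha1 := rg_many i0 i1 h01 hB (fun i => (-((b i - a i + 2) / 5)).toNat) ha
  have hb1 := rg_many i0 i1 h01 hB (fun i => ((b i - a i + 2) / 5).toNat) hb
  have h := hB.2 _ ha1 _ hb1 (fun l => if l = i1 then (b l - a l + 2) % 5 else 2)
    (fun l => if l = i1 then 2 else 4 - (b l - a l + 2) % 5)
    (rg_in_of (fun l => by split_ifs <;> omega) i0 (by simp [h01]) (by simp [h01]))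
    (rg_in_of (fun l => by split_ifs <;> omega) i1 (by simp) (by simp))
    (by
      funext l
      simp only [Pi.add_apply, Pi.sub_apply]
      split_ifs <;> omega)
  have := congrFun h i
  simp only [Pi.sub_apply] at this
  omega

/-- A rigid version of the tile. See notes/P043.md, Rigid. -/
theorem rigid (d : ℕ) (hd : 2 ≤ d) (F : Finset (Fin d → ℤ)) (hF : Good [F]) :
    ∃ F' : Finset (Fin d → ℤ), Good [F'] ∧
      ∀ A, Tiles A F' → ∀ a ∈ A, ∀ b ∈ A, ∀ i, (5 : ℤ) ∣ a i - b i := by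
  classical
  let i0 : Fin d := ⟨0, by omega⟩
  let i1 : Fin d := ⟨1, by omega⟩
  have h01 : i0 ≠ i1 := by simp [i0, i1]
  let R : Finset (Fin d → ℤ) := (Fintype.piFinset fun _ => Finset.Ico (0 : ℤ) 7).filter RgIn
  have hR : ∀ ρ, ρ ∈ R ↔ RgIn ρ := by
    intro ρ
    simp only [R, Finset.mem_filter, Fintype.mem_piFinset, Finset.mem_Ico]
    exact ⟨fun h => h.2, fun h => ⟨rg_bound h, h⟩⟩
  let F' : Finset (Fin d → ℤ) := Finset.image₂ (fun f ρ => (5 : ℤ) • f + ρ) F R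
  have hF' : ∀ v, v ∈ F' ↔ ∃ f ∈ F, ∃ ρ, RgIn ρ ∧ (5 : ℤ) • f + ρ = v := by
    intro v
    simp only [F', Finset.mem_image₂, hR]
  have h0 : RgIn (0 : Fin d → ℤ) := rg_in_of (fun i => by simp) i0 (by simp) (by simp)
  have split : ∀ {h h' ρ ρ' : Fin d → ℤ}, RgIn ρ → RgIn ρ' →
      (5 : ℤ) • h + ρ = (5 : ℤ) • h' + ρ' → h = h' ∧ ρ = ρ' := by
    intro h h' ρ ρ' a1 a2 a3
    have a4 : ρ = ρ' := rg_unique a1 a2 fun i => by
      have := congrFun a3 i
      simp only [Pi.add_apply, Pi.smul_apply, smul_eq_mul] at this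
      omega
    refine ⟨funext fun i => ?_, a4⟩
    have := congrFun a3 i
    rw [a4] at this
    simp only [Pi.add_apply, Pi.smul_apply, smul_eq_mul] at this
    omega
  have rig : ∀ A, Tiles A F' → ∀ a ∈ A, ∀ b ∈ A, ∀ i, (5 : ℤ) ∣ a i - b i := by
    intro A hA a ha b hb i
    have hT : RgT {v | ∃ a ∈ A, ∃ f ∈ F, v = a + (5 : ℤ) • f} := by
      constructor
      · intro g
        obtain ⟨⟨a, v⟩, ⟨h1, h2, h3⟩, -⟩ := hA g
        obtain ⟨f, hf, ρ, hρ, rfl⟩ := (hF' v).1 h2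
        exact ⟨_, ⟨a, h1, f, hf, rfl⟩, ρ, hρ, by rw [add_assoc]; exact h3⟩
      · rintro _ ⟨a, ha, f, hf, rfl⟩ _ ⟨a', ha', f', hf', rfl⟩ ρ ρ' hρ hρ' he
        have := (hA (a + ((5 : ℤ) • f + ρ))).unique (y₁ := (a, (5 : ℤ) • f + ρ))
          (y₂ := (a', (5 : ℤ) • f' + ρ')) ⟨ha, (hF' _).2 ⟨f, hf, ρ, hρ, rfl⟩, rfl⟩
          ⟨ha', (hF' _).2 ⟨f', hf', ρ', hρ', rfl⟩, by
            show a' + ((5 : ℤ) • f' + ρ') = _
            rw [← add_assoc, ← add_assoc, he]⟩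
        simp only [Prod.mk.injEq] at this
        rw [this.1, (split hρ hρ' this.2).1]
    obtain ⟨⟨_, v⟩, ⟨-, h2, -⟩, -⟩ := hA 0
    obtain ⟨f, hf, -⟩ := (hF' v).1 h2
    have := rg_dvd i0 i1 h01 hT ⟨a, ha, f, hf, rfl⟩ ⟨b, hb, f, hf, rfl⟩ i
    simpa using this
  refine ⟨F', ⟨?_, ?_⟩, rig⟩
  · obtain ⟨A0, hA0⟩ := hF.1
    have hA := hA0 F (by simp)
    refine ⟨(fun a => (5 : ℤ) • a) '' A0, ?_⟩
    simp only [List.mem_singleton, forall_eq]
    intro g
    obtain ⟨ρ, h, hρ, rfl⟩ := rg_exists g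
    obtain ⟨⟨a, f⟩, ⟨h1, h2, h3⟩, hu⟩ := hA h
    refine ⟨((5 : ℤ) • a, (5 : ℤ) • f + ρ), ⟨⟨a, h1, rfl⟩, (hF' _).2 ⟨f, h2, ρ, hρ, rfl⟩, ?_⟩, ?_⟩
    · show (5 : ℤ) • a + ((5 : ℤ) • f + ρ) = _
      rw [← add_assoc, ← smul_add, ← h3]
    · rintro ⟨_, v⟩ ⟨⟨a', k1, rfl⟩, k2, k3⟩
      obtain ⟨f', hf', ρ', hρ', rfl⟩ := (hF' v).1 k2
      have k4 : (5 : ℤ) • (a' + f') + ρ' = (5 : ℤ) • h + ρ := by
        rw [smul_add, add_assoc]
        exact k3
      obtain ⟨k5, k6⟩ := split hρ' hρ k4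
      have := hu (a', f') ⟨k1, hf', k5⟩
      simp only [Prod.mk.injEq] at this
      rw [this.1, this.2, k6]
  · rintro ⟨A, ⟨P, hP, hper⟩, hA⟩
    have hA := hA F' (by simp)
    obtain ⟨⟨c, _⟩, ⟨hc, -, -⟩, -⟩ := hA 0
    refine hF.2 ⟨{z | c + (5 : ℤ) • z ∈ A}, ⟨P, hP, fun m z hz => ?_⟩, ?_⟩
    · have := hper ((5 : ℤ) • m) _ hz
      show c + (5 : ℤ) • (z + P • m) ∈ A
      rw [smul_add, ← add_assoc, smul_comm (5 : ℤ) P m]
      exact this
    · simp only [List.mem_singleton, forall_eq]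
      intro g
      obtain ⟨⟨a, v⟩, ⟨h1, h2, h3⟩, hu⟩ := hA (c + (5 : ℤ) • g)
      obtain ⟨f, hf, ρ, hρ, rfl⟩ := (hF' v).1 h2
      have h4 : ρ = 0 := rg_unique hρ h0 fun i => by
        have a1 := congrFun h3 i
        have a2 := rig A hA a h1 c hc i
        simp only [Pi.add_apply, Pi.smul_apply, smul_eq_mul, Pi.zero_apply] at a1 ⊢
        omega
      subst h4
      have h5 : c + (5 : ℤ) • (g - f) = a := by
        funext i
        have a1 := congrFun h3 i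
        simp only [Pi.add_apply, Pi.smul_apply, smul_eq_mul, Pi.zero_apply, Pi.sub_apply] at a1 ⊢
        omega
      refine ⟨(g - f, f), ⟨by show c + (5 : ℤ) • (g - f) ∈ A; rw [h5]; exact h1, hf, by simp⟩, ?_⟩
      rintro ⟨z, f'⟩ ⟨k1, k2, k3⟩
      have k4 := hu (c + (5 : ℤ) • z, (5 : ℤ) • f' + 0) ⟨k1, (hF' _).2 ⟨f', k2, 0, h0, rfl⟩, by
        show c + (5 : ℤ) • z + ((5 : ℤ) • f' + 0) = _
        rw [add_zero, add_assoc, ← smul_add, ← k3]⟩
      simp only [Prod.mk.injEq] at k4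
      have k5 := (split h0 h0 k4.2).1
      subst k5
      exact Prod.ext (eq_sub_of_add_eq k3) rfl

end Vale.Agent.P043
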