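import Vale.Agent.P043.Par

namespace Vale.Agent.P043

namespace Snd

lemma cntA {A B : Type} [Finite A] [Nontrivial B] {Φ : A × B → A × B} (h : Function.Bijective Φ)
    (a : A) (b : B) (h1 : ∀ k, (Φ (k, b)).2 = (Φ (a, b)).2)
    (h2 : ∀ n, (Φ (a, n)).2 = (Φ (a, b)).2) : False := by
  obtain ⟨n, hn⟩ := exists_ne b
  obtain ⟨k, hk⟩ := Finite.injective_iff_surjective.1 (fun k k' e => congrArg Prod.fst
    (h.1 (Prod.ext e ((h1 k).trans (h1 k').symm))) : Function.Injective fun k => (Φ (k, b)).1)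
    (Φ (a, n)).1
  exact hn (congrArg Prod.snd (h.1 (Prod.ext hk ((h1 k).trans (h2 n).symm)))).symm

lemma cntB {A B : Type} [Fintype A] [Fintype B] {Φ : A × B → A × B} (h : Function.Bijective Φ)
    (b : B) (h1 : ∀ k n, (Φ (k, n)).2 = (Φ (k, b)).2) : Fintype.card B ∣ Fintype.card A := by
  classical
  have := h.sum_comp fun q => if q.2 = b then 1 else 0
  have e : ∀ k n, (if (Φ (k, n)).2 = b then 1 else 0) = if (Φ (k, b)).2 = b then 1 else 0 :=
    fun k n => by rw [h1]
  simp only [Fintype.sum_prod_type, e _ _, Finset.sum_const, Finset.card_univ, smul_eq_mul,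
    ← Finset.mul_sum, Finset.sum_ite_eq', Finset.mem_univ, if_true, mul_one] at this
  exact ⟨_, this.symm⟩

variable {G X : Type} [AddCommGroup G]

/-- the group of periods -/
def Prd (f : G → X) : AddSubgroup G where
  carrier := {d | Function.Periodic f d}
  zero_mem' := Function.periodic_with_period_zero f
  add_mem' := Function.Periodic.add_period
  neg_mem' := Function.Periodic.neg

lemma prd_eq {f : G → X} {g g' : G} (h : g - g' ∈ Prd f) : f g = f g' := by
  simpa using h g'

lemma prd_of {f : G → X} {d : G} (h : ∀ g, f (g - d) = f g) : d ∈ Prd f := fun g => by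
  rw [← h, add_sub_cancel_right]

/-- invariance along one line -/
def Inv (f : G → X) (d g : G) : Prop := ∀ n : ℤ, f (g + n • d) = f g

lemma Inv.shift {f : G → X} {d g : G} (h : Inv f d g) (n : ℤ) : Inv f d (g + n • d) := fun m => by
  rw [add_assoc, ← add_smul, h, h]

lemma Inv.prd {f : G → X} {d g g' : G} (h : Inv f d g) (e : g' - g ∈ Prd f) : Inv f d g' :=
  fun n => by rw [prd_eq e, ← h n]; exact prd_eq (by simpa using e)

lemma clause {A : Type} [Fintype A] {X : A → Type} {f : (a : A) → G → X a} {s d : A → G}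
    (h1 : ∀ a, s a - d a ∈ Prd (f a)) (h2 : ∀ a b, b ≠ a → s b ∈ Prd (f a))
    (h : ∀ g, ∃ a, f a (g - s a) = f a g) (g : G) : ∃ a, Inv (f a) (d a) g := by
  classical
  by_contra! hc
  have : ∀ a, ∃ n : ℤ, f a (g + n • d a - d a) ≠ f a (g + n • d a) := fun a => by
    by_contra! h
    have : Function.Periodic (fun n : ℤ => f a (g + n • d a)) 1 := fun n => by
      simpa only [add_smul, one_smul, ← add_assoc, add_sub_cancel_right] using (h (n + 1)).symm
    exact hc a fun n => by simpa using this.int_mul_eq n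
  choose n hn using this
  obtain ⟨a, ha⟩ := h (g + ∑ b, n b • s b)
  have e : g + ∑ b, n b • s b - (g + n a • d a) ∈ Prd (f a) := by
    rw [← Finset.add_sum_erase _ _ (Finset.mem_univ a)]
    convert add_mem (zsmul_mem (h1 a) (n a)) (sum_mem fun b hb =>
      zsmul_mem (h2 a b (Finset.ne_of_mem_erase hb)) (n b)) using 1
    module
  refine hn a ((prd_eq ?_).trans (ha.trans (prd_eq e)))
  convert sub_mem (h1 a) e using 1
  module

end Snd

open Snd in
/-- The conditions have no periodic solution. See notes/P043.md, Sound. -/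
theorem sound {I : Type} [DecidableEq I] [Fintype I] (D : Csp I) (P : Par I)
    (w : P.G → P.H) (hc : Cond D P w) : ¬ WPer w := by
  classical
  rintro ⟨N, hN, hper⟩
  let c := fun (j : Jx I) (g : P.G) => (w g).2 j
  have nt : ∀ j, Nontrivial (ZMod (P.p j)) := fun j =>
    ZMod.nontrivial_iff.2 (by have := P.two_le j; omega)
  have pU : ∀ j i, j.1 ≠ some i → P.u i ∈ Prd (c j) := fun j i h => prd_of (hc.invU j i h)
  have pD : ∀ j, j ≠ (none, 2) → ∀ n : ℤ, (P.p j : ℤ) ∣ n → n • P.dir D j.1 ∈ Prd (c j) := by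
    rintro j h _ ⟨n, rfl⟩
    rw [mul_comm, mul_smul]
    exact zsmul_mem (prd_of (hc.invP j h)) n
  have line : ∀ (j : Fin 3 → Jx I) (d : P.G), Function.Injective j → (∀ a, j a ≠ (none, 2)) →
      (∀ a, P.dir D (j a).1 = d) → (∀ g, ∃ a, c (j a) (g - P.tau D (j a)) = c (j a) g) →
      ∀ g, ∃ a, Inv (c (j a)) d g := fun j d h1 h2 h3 h => clause (d := fun _ => d)
    (fun a => by simpa only [Par.tau, sub_smul, one_smul, h3] using pD _ (h2 a) _ (P.e_self _))
    (fun a b e => by simpa only [Par.tau, h3] using pD _ (h2 a) _ (P.e_ne _ _ (h1.ne e.symm))) h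
  have tau : ∀ j g (n : ℕ), Inv (c j) (P.dir D j.1) g → c j (g - n • P.tau D j) = c j g :=
    fun j g n h => by
      rw [← h (-(n * P.e j)), Par.tau]; congr 1; module
  have mv : ∀ i a g (k n : ℕ), c (some i, a) (g - k • P.mv D i - n • P.tau D (some i, a)) =
      c (some i, a) (g - k • P.u i - n • P.tau D (some i, a)) := fun i a g k n => prd_eq (by
    convert neg_mem (nsmul_mem (pD (some i, a) (by simp) _ (P.er_p i _)) k) using 1
    rw [Par.mv]; module)
  have noL : ∀ i a g (k : ℕ), Inv (c (some i, a)) (P.dir D (some i)) (g - k • P.u i) →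
      ¬∃ n : ℤ, Inv (c (some i, a)) (P.u i) (g + n • P.dir D (some i)) := by
    rintro i a g k h1 ⟨n, h2⟩
    have h3 := h1.shift n
    have h4 := h2.shift (-k)
    rw [show g + n • P.dir D (some i) + (-k : ℤ) • P.u i = g - k • P.u i + n • P.dir D (some i) by
      module] at h4
    refine cntA (hc.win i a (g - k • P.u i + n • P.dir D (some i))) 0 0 (fun k' => ?_) fun n' => ?_
    · refine (mv _ _ _ _ _).trans ?_
      simpa [sub_eq_add_neg] using h4 (-k'.val)
    · simpa [c] using tau _ _ n'.val h3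
  have two : ∀ i g, ∃ k : ℕ, ¬Inv (c (some i, 2)) (P.dir D (some i)) (g - k • P.u i) := by
    intro i g
    by_contra! h
    have := cntB (hc.win i 2 g) 0 fun k n => (mv _ _ _ _ _).trans
      ((tau _ _ _ (h _)).trans ((mv _ _ _ _ _).trans (tau _ _ _ (h _))).symm)
    exact P.ndvd i (by simpa using this)
  let b := fun (x : ℤ × ℤ) i =>
    decide (∃ n : ℤ, Inv (c (some i, 1)) (P.u i) ((x, 0) + n • P.dir D (some i)))
  have hb : ∀ ω ∉ D.Om, ∀ x, ∃ i, Inv (c (gj ω i)) (P.u i) (x, 0) ∧ b x i ≠ ω i := by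
    intro ω hω x
    obtain ⟨i, hi⟩ := clause (f := fun i => c (gj ω i)) (s := P.u) (d := P.u) (by simp)
      (fun i i' e => pU _ _ (by simpa [gj] using e.symm)) (hc.glob ω hω) (x, 0)
    refine ⟨i, hi, fun e => ?_⟩
    rw [gj, ← e] at hi
    by_cases h : b x i = true
    · obtain ⟨k, hk⟩ := two i (x, 0)
      obtain ⟨a, ha⟩ := line (fun a => (some i, a)) (P.dir D (some i)) (Prod.mk_right_injective _)
        (by simp) (fun _ => rfl) (hc.inner i) ((x, 0) - k • P.u i)
      fin_cases a
      · exact noL _ _ _ _ ha ⟨0, by rw [if_pos h] at hi; simpa using hi⟩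
      · exact noL _ _ _ _ ha (of_decide_eq_true h)
      · exact hk ha
    · exact h (decide_eq_true ⟨0, by rw [if_neg h] at hi; simpa using hi⟩)
  have hm : ∀ x, b x ∈ D.Om := fun x => by
    by_contra h
    obtain ⟨i, -, e⟩ := hb _ h x
    exact e rfl
  have sp : ∀ a : Fin 3, a ≠ 2 → ∃ x : ℤ × ℤ,
      ¬∃ n : ℤ, Inv (c (some D.i0, a)) (P.u D.i0) ((x, 0) + n • P.dir D (some D.i0)) := by
    intro a ha
    obtain ⟨x, hx⟩ : ∃ x : ℤ × ℤ, ¬Inv (c (none, a)) (P.dir D none) (x, 0) := by
      by_contra! h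
      have := cntB (hc.swin a ha 0) 0 fun k n => by
        have := h (-((k.val : ℤ), 0))
        rw [show ((-((k.val : ℤ), 0) : ℤ × ℤ), (0 : P.C)) = 0 - k.val • P.ex by simp [Par.ex]] at this
        exact (tau _ _ _ this).trans (tau _ _ _ this).symm
      fin_cases a <;> simp [P.p0, P.p1, P.p2] at this ha
    obtain ⟨k, hk⟩ := two D.i0 (x, 0)
    obtain ⟨a', h⟩ := line (sj D a) (P.dir D none)
      (fun p q => by fin_cases p <;> fin_cases q <;> simp [sj, ha, ha.symm])
      (fun p => by fin_cases p <;> simp [sj, ha]) (fun p => by fin_cases p <;> rfl)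
      (hc.spec a ha) ((x, 0) - k • P.u D.i0)
    fin_cases a'
    · exact absurd (Inv.prd (f := c (none, a)) h
        (by simpa using nsmul_mem (pU (none, a) D.i0 (by simp)) k)) hx
    · exact ⟨x, noL _ _ _ _ h⟩
    · exact absurd h hk
  refine D.noper b N hN (fun x m => funext fun i => decide_eq_decide.2 (exists_congr fun n => ?_))
    (fun x i => decide_eq_decide.2 ?_) hm ?_ ?_
  · have : N • ((m, 0) : P.G) ∈ Prd (c (some i, 1)) := fun g => by simp only [c, hper]
    exact ⟨fun h => h.prd (by convert neg_mem this using 1; ext1 <;> simp),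
      fun h => h.prd (by convert this using 1; ext1 <;> simp)⟩
  · have : ((x + D.h i, 0) : P.G) = (x, 0) + P.dir D (some i) := by simp [Par.dir]
    rw [this]
    exact ⟨fun ⟨n, h⟩ => ⟨n + 1, by convert h using 1; module⟩,
      fun ⟨n, h⟩ => ⟨n - 1, by convert h using 1; module⟩⟩
  · obtain ⟨x, hx⟩ := sp 0 (by decide)
    refine ⟨x, by_contra fun h => ?_⟩
    obtain ⟨i, h1, h2⟩ := hb (Function.update (b x) D.i0 true)
      (fun e => h (by simpa using D.func _ (hm x) _ e fun i hi => by simp [hi])) x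
    by_cases e : i = D.i0
    · subst e
      rw [gj, Function.update_self, if_pos rfl] at h1
      exact hx ⟨0, by simpa using h1⟩
    · simp [e] at h2
  · obtain ⟨x, hx⟩ := sp 1 (by decide)
    exact ⟨x, decide_eq_false hx⟩

end Vale.Agent.P043
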