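import Mathlib

namespace Vale.Agent.P043

/-- the 7-adic Sudoku rule for one row of 49 cells -/
def SRel (v : ℕ → ZMod 7) : Prop :=
  ∃ α β o : ZMod 7, (α ≠ 0 ∨ β ≠ 0) ∧
    (∀ n : ℕ, n < 49 → α * n + β ≠ 0 → v n = α * n + β) ∧
    ∀ k j : ℕ, k < 7 → j < 7 → α ≠ 0 → α * k + β = 0 → o + α * j ≠ 0 →
      v (k + 7 * j) = o + α * j

namespace SudA

/-- the last nonzero digit -/
def dig (m : ℤ) : ZMod 7 := if m = 0 then 1 else (m / 7 ^ padicValInt 7 m : ℤ)

lemma dig_mul (m : ℤ) : dig (7 * m) = dig m := by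
  have : Fact (Nat.Prime 7) := ⟨by norm_num⟩
  rcases eq_or_ne m 0 with rfl | h
  · rfl
  · have e : padicValInt 7 7 = 1 := padicValInt.self (p := 7) (by omega)
    rw [dig, dig, if_neg (by omega), if_neg h, padicValInt.mul (by omega) h, e, pow_add, pow_one,
      Int.mul_ediv_mul_of_pos _ _ (by omega)]

lemma dig_unit (m : ℤ) (h : (m : ZMod 7) ≠ 0) : dig m = m := by
  rw [dig, if_neg (by rintro rfl; simp at h), padicValInt.eq_zero_of_not_dvd fun e =>
    h ((ZMod.intCast_zmod_eq_zero_iff_dvd m 7).2 e), pow_zero, Int.ediv_one]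

lemma canc : ∀ a x y : ZMod 7, a ≠ 0 → a * x = a * y → x = y := by decide +kernel

lemma root : ∀ a b : ZMod 7, a ≠ 0 ∨ b ≠ 0 → ∃ r, ∀ x, x ≠ r → a * x + b ≠ 0 := by decide +kernel

lemma agree {a b a' b' : ZMod 7} (r1 r2 r3 r4 : ZMod 7)
    (h : ∀ x, x ≠ r1 → x ≠ r2 → x ≠ r3 → x ≠ r4 → a * x + b = a' * x + b') : a = a' ∧ b = b' := by
  by_contra hc
  obtain ⟨r, hr⟩ := root (a - a') (b - b') (by simpa only [sub_ne_zero, not_and_or] using hc)
  obtain ⟨x, -, hx⟩ := Finset.exists_mem_notMem_of_card_lt_card (s := {r1, r2, r3, r4, r})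
    (t := Finset.univ) (Finset.card_le_five.trans_lt (by simp))
  simp only [Finset.mem_insert, Finset.mem_singleton, not_or] at hx
  exact hr x hx.2.2.2.2 (by linear_combination h x hx.1 hx.2.1 hx.2.2.1 hx.2.2.2.1)

lemma affine (δ : ZMod 7 → ZMod 7) (h : ∀ t, ∃ α β : ZMod 7, (α ≠ 0 ∨ β ≠ 0) ∧
    ∀ k, α * k + β ≠ 0 → t + δ k ≠ 0 → t + δ k = α * k + β) : ∃ X Z, ∀ k, δ k = X * k + Z := by
  obtain ⟨t0, k0, h0⟩ : ∃ t0 k0, ∀ k, k ≠ k0 → t0 + δ k ≠ 0 := by
    by_cases hs : Function.Surjective δ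
    · exact ⟨-δ 0, 0, fun k hk e =>
        hk (Finite.injective_iff_surjective.2 hs (by linear_combination e))⟩
    · obtain ⟨v, hv⟩ := not_forall.1 hs
      exact ⟨-v, 0, fun k _ e => hv ⟨k, by linear_combination e⟩⟩
  obtain ⟨α0, β0, h1, h2⟩ := h t0
  obtain ⟨r0, hr0⟩ := root _ _ h1
  refine ⟨α0, β0 - t0, fun k => ?_⟩
  obtain ⟨t, -, ht⟩ := Finset.exists_mem_notMem_of_card_lt_card
    (s := {-δ k, -(α0 * k + (β0 - t0)), -(β0 - t0)})
    (t := Finset.univ) (Finset.card_le_three.trans_lt (by simp))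
  simp only [Finset.mem_insert, Finset.mem_singleton, not_or, ← add_eq_zero_iff_eq_neg] at ht
  obtain ⟨α, β, h3, h4⟩ := h t
  obtain ⟨r, hr⟩ := root _ _ h3
  obtain ⟨r', hr'⟩ := root α0 _ (Or.inr ht.2.2)
  obtain ⟨rfl, rfl⟩ := agree (a := α0) (b := t + (β0 - t0)) (a' := α) (b' := β) k0 r0 r r'
    fun x a b c d => by
      have e := h2 x (hr0 x b) (h0 x a)
      rw [← h4 x (hr x c) fun e' => hr' x d (by linear_combination e' - e)]
      linear_combination -e
  linear_combination h4 k (fun e => ht.2.1 (by linear_combination e)) ht.1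

lemma fin1 : ∀ Y Z p : ZMod 7, Y ≠ 0 → ∃ x, Y * x + Z ≠ 0 ∧ Y * (x + p) + Z ≠ 0 := by
  decide +kernel

lemma fin2 : ∀ Y u v : ZMod 7, Y ≠ 0 → ∃ j : Fin 6, u + Y * (j : ℕ) ≠ 0 ∧ v + Y * (j : ℕ) ≠ 0 ∧
    u + Y * (j : ℕ) + 2 * Y ≠ 0 ∧ v + Y * (j : ℕ) + 2 * Y ≠ 0 ∧ 2 * Y ≠ 0 := by
  decide +kernel

lemma col {Y : ZMod 7} (hY : Y ≠ 0) (φ : ℕ → ℤ → ZMod 7)
    (h : ∀ μ a : ℤ, a = 1 ∨ a = 2 → ∃ δ, ∀ j : ℕ, j < 7 → Y * (μ + a * j) + δ ≠ 0 →
      φ j (μ + a * j) = Y * (μ + a * j) + δ) :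
    ∃ δ, ∀ (j : ℕ) (m : ℤ), j < 7 → Y * m + δ ≠ 0 → φ j m = Y * m + δ := by
  choose d hd using fun μ => h μ 1 (Or.inl rfl)
  have hd' : ∀ (j : ℕ) (m μ : ℤ), μ = m - j → j < 7 → Y * m + d μ ≠ 0 → φ j m = Y * m + d μ := by
    rintro j m μ rfl
    simpa using hd (m - j) j
  have hp : Function.Periodic d 1 := fun μ => by
    obtain ⟨⟨j, hj⟩, h1, h2, h3, h4, h5⟩ := fin2 Y (Y * μ + d μ) (Y * μ + d (μ + 1)) hY
    obtain ⟨δ, hδ⟩ := h (μ - j) 2 (Or.inr rfl)
    have e1 := hd' j (μ + j) μ (by ring) (by omega) fun e => h1 (by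
      push_cast at e; linear_combination e)
    have e2 := hd' (j + 1) (μ + j + 2) (μ + 1) (by push_cast; ring) (by omega) fun e => h4 (by
      push_cast at e; linear_combination e)
    have e3 := hδ j (by omega)
    have e4 := hδ (j + 1) (by omega)
    rw [show μ - j + 2 * j = μ + j by ring, e1] at e3
    rw [show μ - j + 2 * (j + 1 : ℕ) = μ + j + 2 by push_cast; ring, e2] at e4
    push_cast at e3 e4
    by_cases c : Y * (μ - j + 2 * j) + δ = 0
    · exact absurd (by linear_combination e4 (fun e => h5 (by linear_combination e - c)) + c) h2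
    · linear_combination e4 (fun e => h3 (by linear_combination e + e3 c)) - e3 c
  exact ⟨d 0, fun j m => by simpa only [← hp.int_mul_eq (m - j)] using hd' j m _ (by simp)⟩

end SudA

open SudA

/-- The last nonzero digit solves the Sudoku. See notes/P043.md, SudA. -/
theorem exists_dig : ∃ f : ℤ → ZMod 7, (∀ m : ℤ, (m : ZMod 7) ≠ 0 → f m = m) ∧
    ∀ a b : ℤ, SRel fun n => f (a * n + b) := by
  refine ⟨dig, dig_unit, fun a b => ?_⟩
  induction hn : a.natAbs + b.natAbs using Nat.strong_induction_on generalizing a b with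
  | _ N ih =>
  by_cases h : (a : ZMod 7) ≠ 0 ∨ (b : ZMod 7) ≠ 0
  · obtain ⟨o, ho⟩ : ∃ o : ℤ, ∀ k : ℕ, k < 7 → (a : ZMod 7) ≠ 0 → (a : ZMod 7) * k + b = 0 →
        a * k + b = 7 * o := by
      by_cases h : ∃ k : ℕ, k < 7 ∧ (a : ZMod 7) * k + b = 0
      · obtain ⟨k, hk, e⟩ := h
        obtain ⟨o, ho⟩ := (ZMod.intCast_zmod_eq_zero_iff_dvd (a * k + b) 7).1 (by push_cast; exact e)
        refine ⟨o, fun k' hk' ha e' => ?_⟩
        have := (ZMod.natCast_eq_natCast_iff' _ _ _).1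
          (canc a k' k ha (by linear_combination e' - e))
        rw [show k' = k by omega, ho]; rfl
      · exact ⟨0, fun k hk _ e => absurd ⟨k, hk, e⟩ h⟩
    refine ⟨a, b, o, h, fun n _ e => ?_, fun k j hk _ ha e e' => ?_⟩
    · simpa using dig_unit (a * n + b) (by simpa using e)
    · have : a * (k + 7 * j : ℕ) + b = 7 * (o + a * j) := by
        push_cast; linear_combination ho k hk ha e
      simp only [this, dig_mul]
      simpa using dig_unit (o + a * j) (by simpa using e')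
  simp only [not_or, not_not, ZMod.intCast_zmod_eq_zero_iff_dvd] at h
  obtain ⟨⟨a, rfl⟩, ⟨b, rfl⟩⟩ := h
  by_cases h0 : a = 0 ∧ b = 0
  · obtain ⟨rfl, rfl⟩ := h0
    exact ⟨0, 1, 0, by decide, fun n _ _ => by simp [dig], by simp⟩
  · simpa only [Nat.cast_ofNat, mul_assoc, ← mul_add, dig_mul] using
      ih _ (by push_cast at hn; omega) a b rfl

/-- No periodic solution with nonzero slope. See notes/P043.md, SudA. -/
theorem no_periodic (P : ℕ) (hP : 0 < P) (F : ℕ → ℤ → ZMod 7) (Y X Z : ZMod 7) (hY : Y ≠ 0)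
    (hper : ∀ n : ℕ, n < 49 → ∀ m : ℤ, F n (m + P) = F n m)
    (hS : ∀ a b : ℤ, SRel fun n => F n (a * n + b))
    (hH : ∀ n : ℕ, n < 49 → ∀ m : ℤ, Y * m + X * n + Z ≠ 0 → F n m = Y * m + X * n + Z) :
    False := by
  induction P using Nat.strong_induction_on generalizing F X Z with
  | _ P ih =>
  have n1 : ((1 : ℤ) : ZMod 7) ≠ 0 := by decide
  have n2 : ((2 : ℤ) : ZMod 7) ≠ 0 := by decide
  have : Fact (Nat.Prime 7) := ⟨by norm_num⟩
  obtain ⟨Q, rfl⟩ : 7 ∣ P := by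
    obtain ⟨x, h1, h2⟩ := fin1 Y Z P hY
    obtain ⟨m, rfl⟩ := ZMod.intCast_surjective x
    have := hper 0 (by omega) m
    rw [hH 0 (by omega) m (by simpa), hH 0 (by omega) _ (by simpa)] at this
    exact (ZMod.natCast_eq_zero_iff _ _).1 (canc Y _ _ hY (by
      push_cast at this; linear_combination this))
  obtain ⟨x, hx⟩ := ZMod.intCast_surjective (-X / Y)
  obtain ⟨z, hz⟩ := ZMod.intCast_surjective (-Z / Y)
  rw [eq_div_iff hY] at hx hz
  have hG : ∀ n : ℕ, n < 49 → ∀ m : ℤ, Y * m ≠ 0 → F n (m + x * n + z) = Y * m := by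
    intro n hn m h
    have e : Y * (m + x * n + z : ℤ) + X * n + Z = Y * m := by
      push_cast; linear_combination n * hx + hz
    rw [hH n hn _ (e ▸ h), e]
  have hS' : ∀ a b : ℤ, SRel fun n => F n (a * n + b + x * n + z) := fun a b => by
    convert hS (a + x) (b + z) using 3; ring
  have v7 : ∀ k : ZMod 7, k.val < 49 := fun k => k.val_lt.trans (by omega)
  choose δ hδ using fun k : ZMod 7 => col hY
    (fun j m => F (k.val + 7 * j) (7 * m + x * (k.val + 7 * j : ℕ) + z)) fun μ a ha => by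
      have ha : Y * a ≠ 0 := mul_ne_zero hY (by rcases ha with rfl | rfl; exacts [n1, n2])
      obtain ⟨α, β, o, h1, h2, h3⟩ := hS' a (7 * μ - a * k.val)
      obtain ⟨r, hr⟩ := root _ _ h1
      obtain ⟨r', hr'⟩ := root _ (-(Y * a * k)) (Or.inl ha)
      have e7 : (7 : ZMod 7) = 0 := rfl
      obtain ⟨rfl, rfl⟩ := agree (a := Y * a) (b := -(Y * a * k)) (a' := α) (b' := β) r r r' r'
        fun n a1 _ a2 _ => by
          have e : Y * (a * n.val + (7 * μ - a * k.val) : ℤ) = Y * a * n + -(Y * a * k) := by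
            simp [e7]; ring
          have := h2 n.val (v7 n) (by simpa using hr n a1)
          simp only [hG _ (v7 n) _ (e ▸ hr' n a2), e] at this
          simpa using this
      refine ⟨o - Y * μ, fun j hj e => ?_⟩
      refine (congrArg _ ?_).trans ((h3 k.val j k.val_lt hj ha (by simp)
        fun e' => e (by linear_combination e')).trans (by ring))
      push_cast; ring
  have hδ' : ∀ n : ℕ, n < 49 → ∀ m : ℤ, Y * m + δ n ≠ 0 →
      F n (7 * m + x * n + z) = Y * m + δ n := fun n hn m h => by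
    simpa only [ZMod.val_natCast, Nat.mod_add_div] using hδ n (n / 7) m (by omega) h
  obtain ⟨X', Z', e⟩ := affine δ fun t => by
    obtain ⟨y, hy⟩ := ZMod.intCast_surjective (t / Y)
    rw [eq_div_iff hY, mul_comm] at hy
    obtain ⟨α, β, o, h1, h2, -⟩ := hS' 0 (7 * y)
    refine ⟨α, β, h1, fun k a b => ?_⟩
    have := h2 k.val (v7 k) (by simpa using a)
    simp only [zero_mul, zero_add] at this
    rw [hδ' _ (v7 k) _ (by simpa [hy] using b)] at this
    simpa [hy] using this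
  refine ih Q (by omega) (by omega) (fun n m => F n (7 * m + x * n + z)) X' Z'
    (fun n hn m => ?_) (fun a b => ?_) fun n hn m => ?_
  · rw [← hper n hn (7 * m + x * n + z)]
    congr 1; push_cast; ring
  · convert hS' (7 * a) (7 * b) using 3; ring
  · simpa only [e, add_assoc] using hδ' n hn m

end Vale.Agent.P043
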