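import Vale.Agent.P043.Defs
import Vale.Agent.P043.SudA

namespace Vale.Agent.P043

namespace SudB

/-- the variables -/
abbrev V : Type := Fin 49 ⊕ Fin 3

/-- the directions -/
def hv : V → ℤ × ℤ := Sum.elim (fun n => (1, -(n : ℕ))) ![(0, 1), (1, 0), (1, -1)]

/-- the dual forms -/
def nv : V → (ℤ × ℤ →+ ℤ) := Sum.elim (fun _ => .fst _ _) ![.snd _ _, .fst _ _, .fst _ _]

/-- the model values -/
def val (f : ℤ → ZMod 7) (x : ℤ × ℤ) : V → ZMod 7 :=
  Sum.elim (fun n => f (x.1 * (n : ℕ) + x.2)) ![x.1, x.2, x.1 + x.2]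

/-- the local rule -/
def Rel (v : V → ZMod 7) : Prop :=
  v (.inr 2) = v (.inr 0) + v (.inr 1) ∧
    (∀ n : Fin 49, v (.inr 0) * (n : ℕ) + v (.inr 1) ≠ 0 →
      v (.inl n) = v (.inr 0) * (n : ℕ) + v (.inr 1)) ∧
    SRel fun n => if h : n < 49 then v (.inl ⟨n, h⟩) else 0

lemma congr {v v' : ℕ → ZMod 7} (h : SRel v) (e : ∀ n, n < 49 → v' n = v n) : SRel v' := by
  obtain ⟨α, β, o, h1, h2, h3⟩ := h
  exact ⟨α, β, o, h1, fun n hn h => (e n hn).trans (h2 n hn h),
    fun k j hk hj a b c => (e _ (by omega)).trans (h3 k j hk hj a b c)⟩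

lemma lin {g : ℤ → ZMod 7} {Y : ZMod 7} (h : ∀ a, g (a + 1) = g a + Y) (a : ℤ) :
    g a = Y * a + g 0 := by
  induction a using Int.induction_on with
  | zero => simp
  | succ a ih => rw [h, ih]; push_cast; ring
  | pred a ih =>
    have := h (-a - 1)
    rw [sub_add_cancel, ih] at this
    push_cast at this ⊢
    linear_combination -this

lemma noper (v : ℤ × ℤ → V → ZMod 7) (P : ℕ) (hP : 0 < P) (hper : ∀ x m, v (x + P • m) = v x)
    (hinv : ∀ x y, v (x + hv y) y = v x y) (hR : ∀ x, Rel (v x)) {x x' : ℤ × ℤ}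
    (hx : v x (.inr 0) ≠ v x' (.inr 0)) : False := by
  have hz : ∀ y x x' (k : ℤ), x' = x + k • hv y → v x' y = v x y := by
    rintro y x _ k rfl
    exact Function.Periodic.zsmul (f := fun x => v x y) (fun x => hinv x y) k x
  have eA : ∀ a b, v (a, b) (.inr 0) = v (a, 0) (.inr 0) := fun a b => hz _ _ _ b (by simp [hv])
  have eB : ∀ a b, v (a, b) (.inr 1) = v (0, b) (.inr 1) := fun a b => hz _ _ _ a (by simp [hv])
  have eC : ∀ a b, v (a, 0) (.inr 0) + v (0, b) (.inr 1) = v (0, a + b) (.inr 2) := fun a b => by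
    rw [← eA a b, ← eB a b, ← (hR _).1]
    exact hz _ _ _ a (by simp [hv])
  have hA := lin (g := fun a => v (a, 0) (.inr 0)) (Y := v (0, 1) (.inr 1) - v (0, 0) (.inr 1))
    fun a => by
      have := eC (a + 1) 0
      rw [add_zero] at this
      linear_combination this - eC a 1
  have hB := lin (g := fun b => v (0, b) (.inr 1)) (Y := v (0, 1) (.inr 1) - v (0, 0) (.inr 1))
    fun b => by
      have := hA 1
      push_cast at this
      linear_combination eC 0 (b + 1) - eC 1 b + this +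
        congrArg (v · (.inr 2)) (show ((0, 0 + (b + 1)) : ℤ × ℤ) = (0, 1 + b) by simp [add_comm])
  refine no_periodic P hP (fun n m => if h : n < 49 then v (0, m) (.inl ⟨n, h⟩) else 0)
    (v (0, 1) (.inr 1) - v (0, 0) (.inr 1)) (v (0, 0) (.inr 0)) (v (0, 0) (.inr 1))
    (fun e => hx ?_) (fun n hn m => ?_) (fun a b => congr (hR (a, b)).2.2 fun n hn => ?_)
    fun n hn m h => ?_
  · rw [eA x.1 x.2, eA x'.1 x'.2, hA x.1, hA x'.1, e, zero_mul, zero_mul]
  · simp only [dif_pos hn, ← hper (0, m) (0, 1)]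
    simp
  · simp only [dif_pos hn]
    exact (hz _ _ _ a (by simp [hv])).symm
  · have := (hR (0, m)).2.1 ⟨n, hn⟩
    rw [eA, hB m] at this
    rw [dif_pos hn, this fun e => h (by linear_combination e)]
    ring

end SudB

open SudB in
/-- The Sudoku as a boolean constraint problem. See notes/P043.md, SudB. -/
theorem exists_csp : Nonempty (Csp (Option ((Fin 49 ⊕ Fin 3) × ZMod 7))) := by
  obtain ⟨f, hf, hS⟩ := exists_dig
  refine ⟨{
    i0 := none
    h := fun o => o.elim (0, 1) fun y => hv y.1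
    nu := fun o => o.elim (.snd _ _) fun y => nv y.1
    nuh := ?_
    h0 := rfl
    Om := {ω | ∃ v, Rel v ∧ (∀ x c, ω (some (x, c)) = decide (v x = c)) ∧
      ω none = decide (2 ≤ (v (.inr 0)).val)}
    b0 := fun x o => o.elim (decide (2 ≤ x.1 % 7)) fun y => decide (val f x y.1 = y.2)
    b0inv := ?_
    b0mem := fun x => ⟨val f x, ⟨rfl, fun n h => ?_, congr (hS x.1 x.2) fun n hn => dif_pos hn⟩,
      fun _ _ => rfl, ?_⟩
    b0sp := fun _ => rfl
    func := ?_
    noper := ?_ }⟩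
  · rintro (_ | ⟨n | n, c⟩)
    · rfl
    · rfl
    · fin_cases n <;> rfl
  · rintro x (_ | ⟨n | n, c⟩)
    · simp
    · simp only [Option.elim, val, hv, Sum.elim_inl, Prod.fst_add, Prod.snd_add]
      congr 3; ring
    · exact decide_eq_decide.2 (by fin_cases n <;> simp [val, hv, add_add_add_comm _ (1 : ZMod 7)])
  · simpa [val] using hf (x.1 * (n : ℕ) + x.2) (by simpa [val] using h)
  · have := ZMod.val_intCast (n := 7) x.1
    refine decide_eq_decide.2 (?_ : _ ↔ 2 ≤ (x.1 : ZMod 7).val)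
    omega
  · rintro ω ⟨v, -, h1, h2⟩ ω' ⟨v', -, h3, h4⟩ h
    have := h (some (.inr 0, v' (.inr 0))) (by simp)
    rw [h1, h3] at this
    rw [h2, h4, show v (.inr 0) = v' (.inr 0) by simpa using this]
  · rintro b P hP hper hinv hm ⟨x, hx⟩ ⟨x', hx'⟩
    choose v h1 h2 h3 using hm
    have e : ∀ x x' y, b x (some (y, v x' y)) = b x' (some (y, v x' y)) → v x y = v x' y :=
      fun x x' y h => by simpa [h2] using h
    refine noper v P hP (fun x m => funext fun y => e _ _ _ (by rw [hper]))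
      (fun x y => e _ _ _ (hinv x (some (y, _)))) h1 (x := x) (x' := x') fun h => ?_
    rw [h3, h, ← h3, hx'] at hx
    simp at hx

end Vale.Agent.P043
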