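import Vale.Agent.P043.Expr
import Vale.Agent.P043.ParEx
import Vale.Agent.P043.Exist
import Vale.Agent.P043.Sound
import Vale.Agent.P043.SudB
import Vale.Agent.P043.Merge
import Vale.Agent.P043.Lift
import Vale.Agent.P043.Dim
import Vale.Agent.P043.Rigid
import Vale.Agent.P043.Euclid

namespace Vale.Agent.P043

theorem good_three : ∃ F : Finset ((ℤ × ℤ) × ℤ), Good [F] := by
  obtain ⟨D⟩ := exists_csp
  obtain ⟨P⟩ := exists_par (Option ((Fin 49 ⊕ Fin 3) × ZMod 7))
  obtain ⟨S, hS, hc⟩ := expr_cond D P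
  obtain ⟨w0, hw0, hc0⟩ := exist_cond D P
  obtain ⟨L, hL⟩ := lang_good P.ι_injective S hS w0 hw0 ((hc w0 hw0).2 hc0)
    fun w hw hv => sound D P w ((hc w hw).1 hv)
  obtain ⟨L', hL'⟩ := lift_good _ P.surj L hL
  exact merge_good L' hL'

end Vale.Agent.P043
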