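import Vale.Agent.P043.Stmt

namespace Vale.Agent.P043

/-- working form of periodicity -/
def Per {G : Type} [AddCommGroup G] (A : Set G) : Prop :=
  ∃ P : ℕ, 0 < P ∧ ∀ m : G, ∀ a ∈ A, a + P • m ∈ A

/-- a system of tiles with a common tiling set but no periodic one -/
def Good {G : Type} [AddCommGroup G] (L : List (Finset G)) : Prop :=
  (∃ A0 : Set G, ∀ F ∈ L, Tiles A0 F) ∧ ¬ ∃ A : Set G, Per A ∧ ∀ F ∈ L, Tiles A F

/-- A boolean constraint problem on `ℤ²`: variable `i` is constant along the direction `h i`,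
at every point the tuple of values lies in `Om`. It has the solution `b0`, but no periodic
solution in which the variable `i0` takes both values. -/
structure Csp (I : Type) where
  i0 : I
  h : I → ℤ × ℤ
  nu : I → (ℤ × ℤ →+ ℤ)
  nuh : ∀ i, nu i (h i) = 1
  h0 : h i0 = (0, 1)
  Om : Set (I → Bool)
  b0 : ℤ × ℤ → I → Bool
  b0inv : ∀ x i, b0 (x + h i) i = b0 x i
  b0mem : ∀ x, b0 x ∈ Om
  b0sp : ∀ x, b0 x i0 = decide (2 ≤ x.1 % 7)
  func : ∀ ω ∈ Om, ∀ ω' ∈ Om, (∀ i, i ≠ i0 → ω i = ω' i) → ω i0 = ω' i0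
  noper : ∀ (b : ℤ × ℤ → I → Bool) (P : ℕ), 0 < P → (∀ x m, b (x + P • m) = b x) →
    (∀ x i, b (x + h i) i = b x i) → (∀ x, b x ∈ Om) →
    (∃ x, b x i0 = true) → (∃ x, b x i0 = false) → False

end Vale.Agent.P043
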