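import Vale.Agent.P043.Lang

namespace Vale.Agent.P043

abbrev Jx (I : Type) : Type := Option I × Fin 3

/-- The moduli and the Chinese remainder idempotents. -/
structure Par (I : Type) where
  r : I → ℕ
  p : Jx I → ℕ
  r_ne : ∀ i, r i ≠ 0
  two_le : ∀ j, 2 ≤ p j
  p0 : p (none, 0) = 2
  p1 : p (none, 1) = 5
  p2 : p (none, 2) = 7
  ndvd : ∀ i, ¬ p (some i, 2) ∣ r i
  frob : ∀ i (c : Fin 3), c ≠ 2 → ∃ a b : ℕ, r i = a * p (some i, c) + b * p (some i, 2)
  e : Jx I → ℤ
  er : I → ℤ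
  e_self : ∀ j, (p j : ℤ) ∣ e j - 1
  e_ne : ∀ j j', j' ≠ j → (p j' : ℤ) ∣ e j
  e_r : ∀ j i, ((r i ^ 2 : ℕ) : ℤ) ∣ e j
  er_self : ∀ i, ((r i ^ 2 : ℕ) : ℤ) ∣ er i - 1
  er_p : ∀ i j, (p j : ℤ) ∣ er i
  surj : Function.Surjective
    (Int.castAddHom (((i : I) → ZMod (r i ^ 2)) × ((j : Jx I) → ZMod (p j))))

variable {I : Type}

instance (P : Par I) (i : I) : NeZero (P.r i) := ⟨P.r_ne i⟩
instance (P : Par I) (j : Jx I) : NeZero (P.p j) := ⟨by have := P.two_le j; omega⟩

abbrev Par.C (P : Par I) : Type := ((i : I) → ZMod (P.r i ^ 2)) × ((j : Jx I) → ZMod (P.p j))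
abbrev Par.H (P : Par I) : Type := ((i : I) → ZMod (P.r i)) × ((j : Jx I) → ZMod (P.p j))
abbrev Par.G (P : Par I) : Type := (ℤ × ℤ) × P.C

/-- multiplication by `r` from `ℤ/r` to `ℤ/r²` -/
def mulr (r : ℕ) : ZMod r →+ ZMod (r ^ 2) :=
  ZMod.lift r ⟨zmultiplesHom (ZMod (r ^ 2)) (r : ZMod (r ^ 2)), by
    simp only [zmultiplesHom_apply, zsmul_eq_mul, Int.cast_natCast]
    rw [← Nat.cast_mul, ← pow_two, ZMod.natCast_self]⟩

theorem mulr_intCast (r : ℕ) (n : ℤ) : mulr r (n : ZMod r) = (n : ZMod (r ^ 2)) * r := by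
  unfold mulr
  rw [ZMod.lift_coe]
  simp

theorem mulr_injective (r : ℕ) [NeZero r] : Function.Injective (mulr r) := by
  rw [injective_iff_map_eq_zero]
  intro a ha
  obtain ⟨n, rfl⟩ := ZMod.intCast_surjective a
  rw [mulr_intCast] at ha
  have h1 : (((n * r : ℤ)) : ZMod (r ^ 2)) = 0 := by push_cast; exact ha
  rw [ZMod.intCast_zmod_eq_zero_iff_dvd] at h1 ⊢
  have hr : (r : ℤ) ≠ 0 := by exact_mod_cast NeZero.ne r
  push_cast at h1
  rw [pow_two] at h1
  exact (mul_dvd_mul_iff_right hr).1 h1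

/-- reduction from `ℤ/r²` to `ℤ/r` -/
def lo (r : ℕ) : ZMod (r ^ 2) →+* ZMod r := ZMod.castHom (dvd_pow_self r two_ne_zero) (ZMod r)

theorem lo_mulr (r : ℕ) (η : ZMod r) : lo r (mulr r η) = 0 := by
  obtain ⟨n, rfl⟩ := ZMod.intCast_surjective η
  rw [mulr_intCast]
  simp

/-- the embedding of the fibre group -/
def Par.ι (P : Par I) : P.H →+ P.G where
  toFun η := (0, (fun i => mulr (P.r i) (η.1 i), η.2))
  map_zero' := by ext <;> simp
  map_add' a b := by ext <;> simp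

theorem Par.ι_apply (P : Par I) (η : P.H) :
    P.ι η = (0, (fun i => mulr (P.r i) (η.1 i), η.2)) := rfl

theorem Par.ι_injective (P : Par I) : Function.Injective P.ι := by
  intro a b h
  rw [P.ι_apply, P.ι_apply] at h
  simp only [Prod.mk.injEq, true_and] at h
  ext i
  · exact mulr_injective _ (congrFun h.1 i)
  · exact congrFun h.2 i

variable [DecidableEq I]

/-- the tag shift of block `i` -/
def Par.u (P : Par I) (i : I) : P.G := (0, (Pi.single i 1, 0))

/-- the direction of a block -/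
def Par.dir (P : Par I) (D : Csp I) (o : Option I) : P.G := (D.h (o.getD D.i0), 0)

/-- the shift by one step for component `j` -/
def Par.tau (P : Par I) (D : Csp I) (j : Jx I) : P.G := P.e j • P.dir D j.1

/-- the tag move of the window of block `i` -/
def Par.mv (P : Par I) (D : Csp I) (i : I) : P.G := P.er i • P.dir D (some i) + P.u i

/-- the horizontal unit -/
def Par.ex (P : Par I) : P.G := ((1, 0), 0)

/-- the three components of the special clause `b` -/
def sj (D : Csp I) (b : Fin 3) : Fin 3 → Jx I := ![(none, b), (some D.i0, b), (some D.i0, 2)]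

/-- the component used by the global clause of `ω` in block `i` -/
def gj (ω : I → Bool) (i : I) : Jx I := (some i, if ω i then 0 else 1)

/-- The conditions that the tiles impose. -/
structure Cond (D : Csp I) (P : Par I) (w : P.G → P.H) : Prop where
  invU : ∀ (j : Jx I) (i : I), j.1 ≠ some i → ∀ g, (w (g - P.u i)).2 j = (w g).2 j
  invP : ∀ j : Jx I, j ≠ (none, 2) → ∀ g,
    (w (g - (P.p j : ℤ) • P.dir D j.1)).2 j = (w g).2 j
  inner : ∀ (i : I) (g : P.G), ∃ a : Fin 3,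
    (w (g - P.tau D (some i, a))).2 (some i, a) = (w g).2 (some i, a)
  spec : ∀ b : Fin 3, b ≠ 2 → ∀ g : P.G, ∃ a : Fin 3,
    (w (g - P.tau D (sj D b a))).2 (sj D b a) = (w g).2 (sj D b a)
  glob : ∀ ω : I → Bool, ω ∉ D.Om → ∀ g : P.G, ∃ i : I,
    (w (g - P.u i)).2 (gj ω i) = (w g).2 (gj ω i)
  win : ∀ (i : I) (a : Fin 3) (g : P.G), Function.Bijective
    fun q : ZMod (P.r i) × ZMod (P.p (some i, a)) =>
      ((w (g - q.1.val • P.mv D i - q.2.val • P.tau D (some i, a))).1 i,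
       (w (g - q.1.val • P.mv D i - q.2.val • P.tau D (some i, a))).2 (some i, a))
  swin : ∀ b : Fin 3, b ≠ 2 → ∀ g : P.G, Function.Bijective
    fun q : ZMod (P.p (none, 2)) × ZMod (P.p (none, b)) =>
      ((w (g - q.1.val • P.ex - q.2.val • P.tau D (none, b))).2 (none, 2),
       (w (g - q.1.val • P.ex - q.2.val • P.tau D (none, b))).2 (none, b))

end Vale.Agent.P043
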