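import Vale.Agent.P043.LangB
import Vale.Agent.P043.Par

namespace Vale.Agent.P043

variable {I : Type} [DecidableEq I] [Fintype I]

/-- component `j` of the fibre group -/
def cj (P : Par I) (j : Jx I) : P.H →+ ZMod (P.p j) :=
  (Pi.evalAddMonoidHom (fun j : Jx I => ZMod (P.p j)) j).comp (AddMonoidHom.snd _ _)

def ci (P : Par I) (i : I) : P.H →+ ZMod (P.r i) :=
  (Pi.evalAddMonoidHom (fun i : I => ZMod (P.r i)) i).comp (AddMonoidHom.fst _ _)

def sgj (P : Par I) (j : Jx I) : ZMod (P.p j) →+ P.H :=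
  (AddMonoidHom.inr _ _).comp (AddMonoidHom.single (fun j : Jx I => ZMod (P.p j)) j)

def sgi (P : Par I) (i : I) : ZMod (P.r i) →+ P.H :=
  (AddMonoidHom.inl _ _).comp (AddMonoidHom.single (fun i : I => ZMod (P.r i)) i)

omit [DecidableEq I] [Fintype I] in
theorem mem_ker_cj (P : Par I) (j : Jx I) (a b : P.H) :
    a - b ∈ (cj P j).ker ↔ a.2 j = b.2 j := by
  rw [AddMonoidHom.mem_ker, map_sub, sub_eq_zero]
  rfl

theorem cyc_exists (K : Type) [Fintype K] [Nonempty K] :
    ∃ nxt : K → K, ∀ a b, ∃ n, nxt^[n] a = b := by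
  obtain ⟨n, hn⟩ : ∃ n, Fintype.card K = n + 1 :=
    Nat.exists_eq_succ_of_ne_zero Fintype.card_ne_zero
  have e : K ≃ ZMod (n + 1) := Fintype.equivOfCardEq (by simp [hn])
  refine ⟨fun a => e.symm (e a + 1), fun a b => ⟨(e b - e a).val, ?_⟩⟩
  have : ∀ m : ℕ, (fun a => e.symm (e a + 1))^[m] a = e.symm (e a + m) := by
    intro m
    induction m with
    | zero => simp
    | succ m ih =>
      rw [Function.iterate_succ_apply', ih]
      simp [add_assoc]
  rw [this]
  simp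

theorem ex_clause (P : Par I) {K : Type} [Fintype K] [Nonempty K] (jj : K → Jx I)
    (τ : K → P.G) (Q : (P.G → P.H) → Prop)
    (hQ : ∀ w, Q w → ∀ a b, b ≠ a → ∀ g, (w (g - τ b)).2 (jj a) = (w g).2 (jj a)) :
    Ex P.ι Q (fun w => ∀ g, ∃ a, (w (g - τ a)).2 (jj a) = (w g).2 (jj a)) := by
  obtain ⟨nxt, hn⟩ := cyc_exists K
  refine Ex.single (clauseS nxt (fun a => (cj P (jj a)).ker) τ) fun w _ hq => ?_
  rw [clause_iff nxt hn]
  · simp only [mem_ker_cj]
  · intro a b hab g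
    rw [mem_ker_cj]
    exact hQ w hq a b hab g

theorem ex_inv (P : Par I) (j : Jx I) (τ : P.G) (Q : (P.G → P.H) → Prop) :
    Ex P.ι Q (fun w => ∀ g, (w (g - τ)).2 j = (w g).2 j) := by
  obtain ⟨S, f, e⟩ := ex_clause P (K := Unit) (fun _ => j) (fun _ => τ) Q
    (fun w _ a b hab => absurd rfl hab)
  exact ⟨S, f, fun w hw hq => (e w hw hq).trans (by simp)⟩

theorem inv_zsmul {G X : Type} [AddCommGroup G] (c : G → X) (v : G) (h : ∀ g, c (g - v) = c g)
    (k : ℤ) (g : G) : c (g - k • v) = c g := by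
  induction k using Int.induction_on generalizing g with
  | zero => simp
  | succ k ih => rw [add_smul, one_smul, ← sub_sub, h, ih]
  | pred k ih =>
    rw [← h (g - _), ← ih g]
    congr 1
    rw [sub_smul, one_smul]
    abel

omit [DecidableEq I] [Fintype I] in
theorem inv_tau (D : Csp I) (P : Par I) (w : P.G → P.H) (j j' : Jx I) (hne : j ≠ j')
    (hd : P.dir D j'.1 = P.dir D j.1)
    (h : ∀ g, (w (g - (P.p j : ℤ) • P.dir D j.1)).2 j = (w g).2 j) (g : P.G) :
    (w (g - P.tau D j')).2 j = (w g).2 j := by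
  obtain ⟨k, hk⟩ := P.e_ne j' j hne
  have := inv_zsmul (fun g => (w g).2 j) _ h k g
  rw [← this, Par.tau, hd, hk, smul_smul, mul_comm]

theorem expr_cond (D : Csp I) (P : Par I) :
    ∃ S : Set (P.H → P.G), S.Finite ∧
      ∀ w, Eqv P.ι w → ((∀ s ∈ S, Valid w s) ↔ Cond D P w) := by
  have : Nonempty I := ⟨D.i0⟩
  have h1 : Ex P.ι (fun _ => True) (fun w =>
      (∀ (j : Jx I) (i : I), j.1 ≠ some i → ∀ g, (w (g - P.u i)).2 j = (w g).2 j) ∧
      (∀ j : Jx I, j ≠ (none, 2) → ∀ g,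
        (w (g - (P.p j : ℤ) • P.dir D j.1)).2 j = (w g).2 j)) :=
    Ex.and (Ex.all fun j => Ex.all fun i => Ex.imp fun _ => ex_inv P j _ _)
      (Ex.all fun j => Ex.imp fun _ => ex_inv P j _ _)
  have h2 := Ex.and h1 (Ex.all fun i : I => ex_clause P (K := Fin 3) (fun a => (some i, a))
    (fun a => P.tau D (some i, a)) _ (fun w hq a b hab g =>
      inv_tau D P w (some i, a) (some i, b) (fun h => hab (congrArg Prod.snd h).symm) rfl
        (hq.2.2 _ (by simp)) g))
  have h3 := Ex.and h2 (Ex.all fun b : Fin 3 => Ex.imp (c := b ≠ 2) fun hb =>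
    ex_clause P (K := Fin 3) (sj D b) (fun a => P.tau D (sj D b a)) _ (fun w hq a c hac g =>
      inv_tau D P w (sj D b a) (sj D b c)
        (by
          revert hac
          fin_cases a <;> fin_cases c <;> simp [sj, hb, Ne.symm hb])
        (by fin_cases a <;> fin_cases c <;> rfl)
        (hq.2.1.2 _ (by fin_cases a <;> simp [sj, hb])) g))
  have h4 := Ex.and h3 (Ex.all fun ω : I → Bool => Ex.imp (c := ω ∉ D.Om) fun _ =>
    ex_clause P (K := I) (gj ω) P.u _ (fun w hq a c hac g =>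
      hq.2.1.1.1 (gj ω a) c (by simpa [gj] using Ne.symm hac) g))
  have h5 := Ex.and h4 (Ex.all fun i : I => Ex.all fun a : Fin 3 =>
    Ex.single (windowS P.ι (ci P i) (cj P (some i, a)) (sgi P i) (sgj P (some i, a))
      (P.mv D i) (P.tau D (some i, a))) fun w hw _ =>
      window_iff _ _ _ _ (by simp [ci, sgi]) (by simp [cj, sgj]) (by simp [ci, sgj])
        (by simp [cj, sgi]) _ _ w hw)
  have h6 := Ex.and h5 (Ex.all fun b : Fin 3 => Ex.imp (c := b ≠ 2) fun hb =>
    Ex.single (windowS P.ι (cj P (none, 2)) (cj P (none, b)) (sgj P (none, 2)) (sgj P (none, b))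
      P.ex (P.tau D (none, b))) fun w hw _ =>
      window_iff _ _ _ _ (by simp [cj, sgj]) (by simp [cj, sgj])
        (by
          intro x
          have : ((none, 2) : Jx I) ≠ (none, b) := by simpa using Ne.symm hb
          simp [cj, sgj, Pi.single_eq_of_ne this])
        (by
          intro x
          have : ((none, b) : Jx I) ≠ (none, 2) := by simpa using hb
          simp [cj, sgj, Pi.single_eq_of_ne this]) _ _ w hw)
  obtain ⟨S, f, e⟩ := h6
  refine ⟨S, f, fun w hw => (e w hw trivial).trans ⟨fun h => ?_, fun h => ?_⟩⟩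
  · exact ⟨h.1.1.1.1.1.1, h.1.1.1.1.1.2, h.1.1.1.1.2, h.1.1.1.2, h.1.1.2, h.1.2, h.2⟩
  · exact ⟨⟨⟨⟨⟨⟨h.invU, h.invP⟩, h.inner⟩, h.spec⟩, h.glob⟩, h.win⟩, h.swin⟩

end Vale.Agent.P043
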