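import Vale.Agent.P043.Defs

namespace Vale.Agent.P043

variable {G H : Type} [AddCommGroup G] [AddCommGroup H]

/-- `w` describes a transversal `{g | w g = 0}` of the cosets of `ι H`. -/
def Eqv (ι : H →+ G) (w : G → H) : Prop := ∀ g η, w (g + ι η) = w g - η

/-- the transversal described by `w` tiles with the tile `{ι η + s η}`. -/
def Valid (w : G → H) (s : H → G) : Prop :=
  ∀ g, Function.Bijective (fun η => η + w (g - s η))

def WPer (w : G → H) : Prop := ∃ P : ℕ, 0 < P ∧ ∀ g m, w (g + P • m) = w g

end Vale.Agent.P043
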