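import Vale.Agent.P043.Lang

namespace Vale.Agent.P043

variable {G H : Type} [AddCommGroup G] [AddCommGroup H]

open Classical in
/-- the tile of a shift function -/
noncomputable def tileOf [Fintype H] (ι : H →+ G) (s : H → G) : Finset G :=
  Finset.univ.image fun η => ι η + s η

theorem mem_tileOf [Fintype H] (ι : H →+ G) (s : H → G) (f : G) :
    f ∈ tileOf ι s ↔ ∃ η, ι η + s η = f := by
  simp [tileOf]

theorem eqv_sub {ι : H →+ G} {w : G → H} (hw : Eqv ι w) (g : G) (η : H) :
    w (g - ι η) = w g + η := by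
  have := hw g (-η)
  rw [map_neg, ← sub_eq_add_neg, sub_neg_eq_add] at this
  exact this

theorem eqv_key {ι : H →+ G} {w : G → H} (hw : Eqv ι w) (s : H → G) (g : G) (η : H) :
    w (g - (ι η + s η)) = η + w (g - s η) := by
  rw [add_comm η, ← eqv_sub hw]
  congr 1
  abel

theorem tiles_of_valid [Fintype H] {ι : H →+ G} {w : G → H} (hw : Eqv ι w) {s : H → G}
    (hs : Valid w s) : Tiles {g | w g = 0} (tileOf ι s) := by
  intro g
  obtain ⟨η, hη⟩ := (hs g).2 0
  refine ⟨(g - (ι η + s η), ι η + s η), ⟨?_, ?_, by simp⟩, ?_⟩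
  · show w _ = 0
    rw [eqv_key hw]; exact hη
  · exact (mem_tileOf _ _ _).2 ⟨η, rfl⟩
  · rintro ⟨a, f⟩ ⟨ha, hf, hg⟩
    obtain ⟨η', rfl⟩ := (mem_tileOf _ _ _).1 hf
    have ha' : a = g - (ι η' + s η') := by rw [← hg]; simp
    have h0 : η' + w (g - s η') = 0 := by
      rw [← eqv_key hw, ← ha']; exact ha
    have : η' = η := (hs g).1 (by simp only; rw [h0]; exact hη.symm)
    subst this
    rw [ha']

theorem inj_of_valid {ι : H →+ G} {w : G → H} (hw : Eqv ι w) {s : H → G}
    (hs : Valid w s) : Function.Injective fun η => ι η + s η := by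
  intro a b hab
  apply (hs 0).1
  simp only at hab ⊢
  rw [← eqv_key hw, ← eqv_key hw, hab]

theorem valid_of_tiles [Fintype H] {ι : H →+ G} {w : G → H} (hw : Eqv ι w) {s : H → G}
    (hinj : Function.Injective fun η => ι η + s η)
    (ht : Tiles {g | w g = 0} (tileOf ι s)) : Valid w s := by
  intro g
  rw [← Finite.injective_iff_bijective]
  intro a b hab
  simp only at hab
  set ζ := a + w (g - s a) with hζ
  obtain ⟨p, -, hp⟩ := ht (g + ι ζ)
  have key : ∀ c, c + w (g - s c) = ζ →
      (g + ι ζ - (ι c + s c), ι c + s c) = p := by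
    intro c hc
    apply hp
    refine ⟨?_, (mem_tileOf _ _ _).2 ⟨c, rfl⟩, by simp⟩
    show w _ = 0
    rw [eqv_key hw]
    have : g + ι ζ - s c = g - s c + ι ζ := by abel
    rw [this, hw, ← add_sub_assoc, hc, sub_self]
  have h1 := key a rfl
  have h2 := key b hab.symm
  exact hinj (congrArg Prod.snd (h1.trans h2.symm))

theorem exists_w [Fintype H] {ι : H →+ G} (hι : Function.Injective ι) {A : Set G}
    (hA : Tiles A (tileOf ι 0)) : ∃ w : G → H, Eqv ι w ∧ {g | w g = 0} = A ∧
      ∀ g η, g + ι η ∈ A → w g = η := by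
  have ex : ∀ g, ∃ η, g + ι η ∈ A := by
    intro g
    obtain ⟨⟨a, f⟩, ⟨ha, hf, hg⟩, -⟩ := hA g
    obtain ⟨η, rfl⟩ := (mem_tileOf _ _ _).1 hf
    refine ⟨-η, ?_⟩
    have : g + ι (-η) = a := by rw [← hg]; simp
    rw [this]; exact ha
  have un : ∀ g η η', g + ι η ∈ A → g + ι η' ∈ A → η = η' := by
    intro g η η' h h'
    obtain ⟨p, -, hp⟩ := hA g
    have h1 := hp (g + ι η, ι (-η)) ⟨h, (mem_tileOf _ _ _).2 ⟨-η, by simp⟩, by simp⟩
    have h2 := hp (g + ι η', ι (-η')) ⟨h', (mem_tileOf _ _ _).2 ⟨-η', by simp⟩, by simp⟩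
    have := congrArg Prod.snd (h1.trans h2.symm)
    exact neg_injective (hι this)
  choose w hw using ex
  refine ⟨w, ?_, ?_, fun g η h => un g _ _ (hw g) h⟩
  · intro g η
    apply un (g + ι η) _ _ (hw _)
    have : g + ι η + ι (w g - η) = g + ι (w g) := by rw [map_sub]; abel
    rw [this]; exact hw g
  · ext g
    constructor
    · intro h
      have := hw g
      rw [show w g = 0 from h] at this
      simpa using this
    · intro h
      exact un g _ _ (hw g) (by simpa using h)

theorem valid_zero {w : G → H} : Valid w 0 := by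
  intro g
  simp only [Pi.zero_apply, sub_zero]
  exact (Equiv.addRight (w g)).bijective

theorem lang_good [Fintype H] {ι : H →+ G} (hι : Function.Injective ι) (S : Set (H → G))
    (hS : S.Finite) (w0 : G → H) (h0 : Eqv ι w0) (hv : ∀ s ∈ S, Valid w0 s)
    (hno : ∀ w, Eqv ι w → (∀ s ∈ S, Valid w s) → ¬ WPer w) :
    ∃ L : List (Finset G), Good L := by
  refine ⟨tileOf ι 0 :: hS.toFinset.toList.map (tileOf ι), ⟨{g | w0 g = 0}, ?_⟩, ?_⟩
  · intro F hF
    rcases List.mem_cons.1 hF with rfl | hF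
    · exact tiles_of_valid h0 valid_zero
    · obtain ⟨s, hs, rfl⟩ := List.mem_map.1 hF
      exact tiles_of_valid h0 (hv s (by simpa using hs))
  · rintro ⟨A, ⟨P, hP, hper⟩, hA⟩
    obtain ⟨w, hw, hwA, hun⟩ := exists_w hι (hA _ List.mem_cons_self)
    refine hno w hw ?_ ⟨P, hP, ?_⟩
    · intro s hs
      apply valid_of_tiles hw (inj_of_valid h0 (hv s hs))
      rw [hwA]
      exact hA _ (List.mem_cons_of_mem _ (List.mem_map.2 ⟨s, by simpa using hs, rfl⟩))
    · intro g m
      apply hun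
      have h1 : g + ι (w g) ∈ A := by
        rw [← hwA]
        show w _ = 0
        rw [hw, sub_self]
      have := hper m _ h1
      have e : g + P • m + ι (w g) = g + ι (w g) + P • m := by abel
      rw [e]; exact this

open Classical in
/-- the clause tile -/
noncomputable def clauseS {K : Type} [Fintype K] (nxt : K → K) (Ka : K → AddSubgroup H)
    (τ : K → G) (η : H) : G := ∑ a, if η ∈ Ka (nxt a) then τ a else 0

theorem clause_sum {K : Type} [DecidableEq K] (Ka : K → AddSubgroup H) (τ : K → G) (w : G → H)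
    (hyp : ∀ a b, b ≠ a → ∀ g, w (g - τ b) - w g ∈ Ka a) (a : K) (T : Finset K) (ha : a ∉ T)
    (g : G) : w (g - ∑ b ∈ T, τ b) - w g ∈ Ka a := by
  induction T using Finset.induction_on generalizing g with
  | empty => simp
  | insert b T hb ih =>
    rw [Finset.sum_insert hb]
    have h1 := ih (fun h => ha (Finset.mem_insert_of_mem h)) (g - τ b)
    have h2 := hyp a b (fun h => ha (h ▸ Finset.mem_insert_self _ _)) g
    have := (Ka a).add_mem h1 h2
    rw [sub_sub] at this
    simpa using this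

theorem clause_red {K : Type} [DecidableEq K] (Ka : K → AddSubgroup H) (τ : K → G) (w : G → H)
    (hyp : ∀ a b, b ≠ a → ∀ g, w (g - τ b) - w g ∈ Ka a) (a : K) (T : Finset K)
    (g : G) : w (g - ∑ b ∈ T, τ b) - w (g - if a ∈ T then τ a else 0) ∈ Ka a := by
  by_cases ha : a ∈ T
  · rw [if_pos ha, ← Finset.add_sum_erase T τ ha, ← sub_sub]
    exact clause_sum Ka τ w hyp a _ (Finset.notMem_erase a T) _
  · rw [if_neg ha, sub_zero]
    exact clause_sum Ka τ w hyp a T ha g

theorem clause_iff [Fintype H] {K : Type} [Fintype K] [Nonempty K] (nxt : K → K)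
    (hn : ∀ a b, ∃ n, nxt^[n] a = b)
    (Ka : K → AddSubgroup H) (τ : K → G) (w : G → H)
    (hyp : ∀ a b, b ≠ a → ∀ g, w (g - τ b) - w g ∈ Ka a) :
    Valid w (clauseS nxt Ka τ) ↔ ∀ g, ∃ a, w (g - τ a) - w g ∈ Ka a := by
  classical
  have hs : ∀ η, clauseS nxt Ka τ η = ∑ b ∈ Finset.univ.filter (fun a => η ∈ Ka (nxt a)), τ b := by
    intro η
    rw [Finset.sum_filter]
    unfold clauseS
    refine Finset.sum_congr rfl fun a _ => ?_
    congr
  constructor
  · intro hv g
    by_contra hc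
    push Not at hc
    set η' := w (g - ∑ a, τ a) - w g with hη'
    have hnot : ∀ a, η' ∉ Ka a := by
      intro a h
      have h1 := clause_red Ka τ w hyp a Finset.univ g
      rw [if_pos (Finset.mem_univ a)] at h1
      apply hc a
      have := (Ka a).sub_mem h h1
      rw [hη'] at this
      simpa using this
    have s1 : clauseS nxt Ka τ η' = 0 := by
      rw [hs]
      apply Finset.sum_eq_zero
      intro b hb
      exact absurd (Finset.mem_filter.1 hb).2 (hnot _)
    have s0 : clauseS nxt Ka τ 0 = ∑ a, τ a := by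
      rw [hs]
      congr 1
      ext a
      simp
    have : η' = 0 := (hv g).1 (by simp only [s1, s0]; rw [hη']; simp)
    obtain ⟨a⟩ := ‹Nonempty K›
    exact hnot a (this ▸ (Ka a).zero_mem)
  · intro hc g
    rw [← Finite.injective_iff_bijective]
    intro η η' he
    simp only [hs] at he
    set T := Finset.univ.filter (fun a => η ∈ Ka (nxt a)) with hT
    set T' := Finset.univ.filter (fun a => η' ∈ Ka (nxt a)) with hT'
    have hd : η - η' = w (g - ∑ b ∈ T', τ b) - w (g - ∑ b ∈ T, τ b) := by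
      rw [sub_eq_sub_iff_add_eq_add, he, add_comm]
    have red : ∀ a, w (g - if a ∈ T' then τ a else 0) - w (g - if a ∈ T then τ a else 0) ∈ Ka a →
        η - η' ∈ Ka a := by
      intro a h
      have h1 := clause_red Ka τ w hyp a T g
      have h2 := clause_red Ka τ w hyp a T' g
      have := (Ka a).sub_mem ((Ka a).add_mem h2 h) h1
      rw [hd]
      convert this using 1
      abel
    have memiff : ∀ b, η - η' ∈ Ka (nxt b) → (b ∈ T ↔ b ∈ T') := by
      intro b h
      simp only [hT, hT', Finset.mem_filter, Finset.mem_univ, true_and]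
      constructor
      · intro h1
        have := (Ka _).sub_mem h1 h
        simpa using this
      · intro h1
        have := (Ka _).add_mem h h1
        simpa using this
    have step : ∀ b, η - η' ∈ Ka (nxt b) → η - η' ∈ Ka b := by
      intro b h
      apply red
      by_cases hb : b ∈ T
      · rw [if_pos hb, if_pos ((memiff b h).1 hb), sub_self]; exact (Ka b).zero_mem
      · rw [if_neg hb, if_neg (fun h' => hb ((memiff b h).2 h')), sub_self]
        exact (Ka b).zero_mem
    obtain ⟨a0, ha0⟩ := hc g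
    have base : η - η' ∈ Ka a0 := by
      apply red
      by_cases h1 : a0 ∈ T <;> by_cases h2 : a0 ∈ T'
      · rw [if_pos h1, if_pos h2, sub_self]; exact (Ka _).zero_mem
      · rw [if_pos h1, if_neg h2, sub_zero]
        have := (Ka _).neg_mem ha0
        simpa using this
      · rw [if_neg h1, if_pos h2, sub_zero]; exact ha0
      · rw [if_neg h1, if_neg h2, sub_self]; exact (Ka _).zero_mem
    have all : ∀ n b, η - η' ∈ Ka (nxt^[n] b) → η - η' ∈ Ka b := by
      intro n
      induction n with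
      | zero => intro b h; exact h
      | succ n ih =>
        intro b h
        rw [Function.iterate_succ_apply] at h
        exact step b (ih _ h)
    have all' : ∀ b, η - η' ∈ Ka b := by
      intro b
      obtain ⟨n, hn⟩ := hn b a0
      exact all n b (hn ▸ base)
    have hTT : T = T' := by
      ext b
      exact memiff b (all' _)
    rw [hTT, sub_self] at hd
    exact sub_eq_zero.1 hd

/-- the window tile -/
def windowS {r p : ℕ} (ι : H →+ G) (c0 : H →+ ZMod r) (c1 : H →+ ZMod p) (σ0 : ZMod r →+ H)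
    (σ1 : ZMod p →+ H) (M τ : G) (η : H) : G :=
  (c0 η).val • M + (c1 η).val • τ - ι (σ0 (c0 η) + σ1 (c1 η))

theorem window_iff [Fintype H] {r p : ℕ} [NeZero r] [NeZero p] {ι : H →+ G} (c0 : H →+ ZMod r)
    (c1 : H →+ ZMod p) (σ0 : ZMod r →+ H) (σ1 : ZMod p →+ H)
    (h00 : ∀ x, c0 (σ0 x) = x) (h11 : ∀ x, c1 (σ1 x) = x) (h01 : ∀ x, c0 (σ1 x) = 0)
    (h10 : ∀ x, c1 (σ0 x) = 0) (M τ : G) (w : G → H) (hw : Eqv ι w) :
    Valid w (windowS ι c0 c1 σ0 σ1 M τ) ↔ ∀ g, Function.Bijective fun q : ZMod r × ZMod p =>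
      (c0 (w (g - q.1.val • M - q.2.val • τ)), c1 (w (g - q.1.val • M - q.2.val • τ))) := by
  have key : ∀ g η, η + w (g - windowS ι c0 c1 σ0 σ1 M τ η) =
      η - (σ0 (c0 η) + σ1 (c1 η)) + w (g - (c0 η).val • M - (c1 η).val • τ) := by
    intro g η
    have : g - windowS ι c0 c1 σ0 σ1 M τ η =
        g - (c0 η).val • M - (c1 η).val • τ + ι (σ0 (c0 η) + σ1 (c1 η)) := by
      unfold windowS; abel
    rw [this, hw]
    abel
  have k0 : ∀ g η, c0 (η + w (g - windowS ι c0 c1 σ0 σ1 M τ η)) =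
      c0 (w (g - (c0 η).val • M - (c1 η).val • τ)) := by
    intro g η
    rw [key]; simp [h00, h01]
  have k1 : ∀ g η, c1 (η + w (g - windowS ι c0 c1 σ0 σ1 M τ η)) =
      c1 (w (g - (c0 η).val • M - (c1 η).val • τ)) := by
    intro g η
    rw [key]; simp [h11, h10]
  constructor
  · intro hv g
    rw [← Finite.surjective_iff_bijective]
    rintro ⟨a, b⟩
    obtain ⟨η, hη⟩ := (hv g).2 (σ0 a + σ1 b)
    simp only at hη
    refine ⟨(c0 η, c1 η), ?_⟩
    simp only
    rw [← k0, ← k1, hη]
    simp [h00, h01, h10, h11]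
  · intro hb g
    rw [← Finite.injective_iff_bijective]
    intro η η' he
    simp only at he
    have : (c0 η, c1 η) = (c0 η', c1 η') := by
      apply (hb g).1
      simp only
      rw [← k0, ← k1, ← k0, ← k1, he]
    have e0 : c0 η = c0 η' := congrArg Prod.fst this
    have e1 : c1 η = c1 η' := congrArg Prod.snd this
    rw [key, key, e0, e1] at he
    simpa using he

/-- `R` can be imposed by finitely many tiles once `Q` holds -/
def Ex (ι : H →+ G) (Q R : (G → H) → Prop) : Prop :=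
  ∃ S : Set (H → G), S.Finite ∧ ∀ w, Eqv ι w → Q w → ((∀ s ∈ S, Valid w s) ↔ R w)

theorem Ex.and {ι : H →+ G} {Q R1 R2 : (G → H) → Prop} (h1 : Ex ι Q R1)
    (h2 : Ex ι (fun w => Q w ∧ R1 w) R2) : Ex ι Q (fun w => R1 w ∧ R2 w) := by
  obtain ⟨S1, f1, e1⟩ := h1
  obtain ⟨S2, f2, e2⟩ := h2
  refine ⟨S1 ∪ S2, f1.union f2, fun w hw hq => ⟨fun h => ?_, fun h s hs => ?_⟩⟩
  · have r1 := (e1 w hw hq).1 fun s hs => h s (Or.inl hs)
    exact ⟨r1, (e2 w hw ⟨hq, r1⟩).1 fun s hs => h s (Or.inr hs)⟩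
  · rcases hs with hs | hs
    · exact (e1 w hw hq).2 h.1 s hs
    · exact (e2 w hw ⟨hq, h.1⟩).2 h.2 s hs

theorem Ex.all {ι : H →+ G} {K : Type} [Finite K] {Q : (G → H) → Prop}
    {R : K → (G → H) → Prop} (h : ∀ k, Ex ι Q (R k)) : Ex ι Q (fun w => ∀ k, R k w) := by
  choose S f e using h
  refine ⟨⋃ k, S k, Set.finite_iUnion f, fun w hw hq => ⟨fun h k => ?_, fun h s hs => ?_⟩⟩
  · exact (e k w hw hq).1 fun s hs => h s (Set.mem_iUnion.2 ⟨k, hs⟩)
  · obtain ⟨k, hk⟩ := Set.mem_iUnion.1 hs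
    exact (e k w hw hq).2 (h k) s hk

theorem Ex.imp {ι : H →+ G} {c : Prop} {Q R : (G → H) → Prop} (h : c → Ex ι Q R) :
    Ex ι Q (fun w => c → R w) := by
  by_cases hc : c
  · obtain ⟨S, f, e⟩ := h hc
    exact ⟨S, f, fun w hw hq => (e w hw hq).trans (by simp [hc])⟩
  · exact ⟨∅, Set.finite_empty, fun w _ _ => by simp [hc]⟩

theorem Ex.single {ι : H →+ G} {Q R : (G → H) → Prop} (s : H → G)
    (h : ∀ w, Eqv ι w → Q w → (Valid w s ↔ R w)) : Ex ι Q R :=
  ⟨{s}, Set.finite_singleton s, fun w hw hq => by simpa using h w hw hq⟩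

end Vale.Agent.P043
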